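import Mathlib
import Vale.Agent.P097.H900.Defs

/-! # P097 / Theorem A: the class of approximate families of leaves (shared by A4, A5, A6) -/

set_option linter.all false

open scoped ComplexConjugate

namespace Vale.Agent.P097.TA

/-- approximate family of leaves: `θ` is `dl`-close to the identity (with first derivatives) and
its Euler-Lagrange error is at most `E` -/
structure Apx (b θ : ℂ → ℂ → ℂ) (r e dl E : ℝ) : Prop where
  hol : JD θ (WW 0 r e)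
  per : ∀ x ε : ℂ, (x, ε) ∈ WW 0 r e → θ (x + 1) ε = θ x ε + 1
  ev : ∀ x ε : ℂ, (x, ε) ∈ WW 0 r e → θ x (-ε) = θ x ε
  re : ∀ x ε : ℂ, (x, ε) ∈ WW 0 r e → θ (conj x) (conj ε) = conj (θ x ε)
  cl : ∀ x ε : ℂ, (x, ε) ∈ WW 0 r e → ‖θ x ε - x‖ ≤ dl
  dx1 : ∀ x ε : ℂ, (x, ε) ∈ WW 0 r e → ‖dx θ x ε - 1‖ ≤ dl
  de0 : ∀ x ε : ℂ, (x, ε) ∈ WW 0 r e → ‖de θ x ε‖ ≤ dl
  er : Bd (Er b θ) E (WW 1 r e)

end Vale.Agent.P097.TA
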