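import Mathlib
import Vale.Agent.P268.Hol
import Vale.Agent.P097.H900.Defs
import Vale.Agent.P097.H707.Tools

/-! # P097 / Theorem A, package A5: chain rules for jointly holomorphic functions -/

set_option linter.all false

open Set Filter Metric Topology
open scoped ComplexConjugate

namespace Vale.Agent.P097.TA.H477

open Vale.Agent.P097.TA

/-- uncurried form -/
def un (f : ℂ → ℂ → ℂ) : ℂ × ℂ → ℂ := fun p => f p.1 p.2

section calculus

variable {f g : ℂ → ℂ → ℂ} {S : Set (ℂ × ℂ)}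

theorem dat (hf : JD f S) (hS : IsOpen S) {x ε : ℂ} (h : (x, ε) ∈ S) :
    DifferentiableAt ℂ (un f) (x, ε) := DifferentiableOn.differentiableAt hf (hS.mem_nhds h)

theorem dat_dx {x ε : ℂ} (h : DifferentiableAt ℂ (un f) (x, ε)) :
    HasDerivAt (fun t => f t ε) (fderiv ℂ (un f) (x, ε) (1, 0)) x := by
  have h1 : HasDerivAt (fun t : ℂ => (t, ε)) ((1 : ℂ), (0 : ℂ)) x :=
    (hasDerivAt_id x).prodMk (hasDerivAt_const x ε)
  exact h.hasFDerivAt.comp_hasDerivAt x h1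

theorem dat_de {x ε : ℂ} (h : DifferentiableAt ℂ (un f) (x, ε)) :
    HasDerivAt (fun t => f x t) (fderiv ℂ (un f) (x, ε) (0, 1)) ε := by
  have h1 : HasDerivAt (fun t : ℂ => (x, t)) ((0 : ℂ), (1 : ℂ)) ε :=
    (hasDerivAt_const ε x).prodMk (hasDerivAt_id ε)
  exact h.hasFDerivAt.comp_hasDerivAt ε h1

theorem dx_eq {x ε : ℂ} (h : DifferentiableAt ℂ (un f) (x, ε)) :
    dx f x ε = fderiv ℂ (un f) (x, ε) (1, 0) := (dat_dx h).deriv

theorem de_eq {x ε : ℂ} (h : DifferentiableAt ℂ (un f) (x, ε)) :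
    de f x ε = fderiv ℂ (un f) (x, ε) (0, 1) := (dat_de h).deriv

/-- chain rule along a curve -/
theorem chain {u v : ℂ → ℂ} {u' v' t : ℂ}
    (h : DifferentiableAt ℂ (un f) (u t, v t)) (hu : HasDerivAt u u' t) (hv : HasDerivAt v v' t) :
    HasDerivAt (fun s => f (u s) (v s)) (dx f (u t) (v t) * u' + de f (u t) (v t) * v') t := by
  have h1 : HasDerivAt (fun s : ℂ => (u s, v s)) (u', v') t := hu.prodMk hv
  have h2 := h.hasFDerivAt.comp_hasDerivAt t h1
  have h3 : fderiv ℂ (un f) (u t, v t) (u', v') =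
      dx f (u t) (v t) * u' + de f (u t) (v t) * v' := by
    rw [dx_eq h, de_eq h]
    have : ((u', v') : ℂ × ℂ) = u' • ((1 : ℂ), (0 : ℂ)) + v' • ((0 : ℂ), (1 : ℂ)) := by
      ext <;> simp
    rw [this, map_add, map_smul, map_smul]
    simp only [smul_eq_mul]
    ring
  rw [h3] at h2
  exact h2

/-- symmetry of the second derivatives -/
theorem mixed (hf : JD f S) (hS : IsOpen S) {x ε : ℂ} (h : (x, ε) ∈ S) :
    Vale.Agent.P097.TA.de (Vale.Agent.P097.TA.dx f) x ε =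
      Vale.Agent.P097.TA.dx (Vale.Agent.P097.TA.de f) x ε := (JD.dx_de hf hS h).symm

end calculus

theorem half_mem {a r e : ℝ} {x ε : ℂ} (h : (x, ε) ∈ WW (a + 1 / 2) r e) :
    (x + ε / 2, ε) ∈ WW a r e ∧ (x - ε / 2, ε) ∈ WW a r e :=
  ⟨WW_add_half h, WW_sub_half h⟩

theorem one_mem {a r e : ℝ} {x ε : ℂ} (h : (x, ε) ∈ WW (a + 1) r e) :
    (x + ε, ε) ∈ WW a r e ∧ (x - ε, ε) ∈ WW a r e :=
  ⟨WW_add h, WW_sub h⟩

end Vale.Agent.P097.TA.H477
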