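import Mathlib
import Vale.Agent.P097.H477.Basic

/-! # P097 / Theorem A, package A5: the exact identities of the Newton step -/

set_option linter.all false

open Set Filter Metric Topology
open scoped ComplexConjugate

namespace Vale.Agent.P097.TA.H477

open Vale.Agent.P097.TA

/-- action density of the family `θ` for the generating function `F` -/
noncomputable def fF (F θ : ℂ → ℂ → ℂ) (m ε : ℂ) : ℂ := F (θ (m - ε / 2) ε) (θ (m + ε / 2) ε)

/-- Euler-Lagrange error -/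
noncomputable def EE (F θ : ℂ → ℂ → ℂ) (x ε : ℂ) : ℂ :=
  de F (θ (x - ε) ε) (θ x ε) + dx F (θ x ε) (θ (x + ε) ε)

/-- the coefficient `c = - F₁₂ v v` -/
noncomputable def cF (F θ : ℂ → ℂ → ℂ) (m ε : ℂ) : ℂ :=
  -dx (de F) (θ (m - ε / 2) ε) (θ (m + ε / 2) ε) * dx θ (m - ε / 2) ε * dx θ (m + ε / 2) ε

/-- `a = θ_ε / θ_x` -/
noncomputable def aa (θ : ℂ → ℂ → ℂ) (x ε : ℂ) : ℂ := de θ x ε / dx θ x ε

/-- `P = F₁ v₋` -/
noncomputable def PP (F θ : ℂ → ℂ → ℂ) (m ε : ℂ) : ℂ :=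
  dx F (θ (m - ε / 2) ε) (θ (m + ε / 2) ε) * dx θ (m - ε / 2) ε

/-- `Q = F₂ v₊` -/
noncomputable def QQ (F θ : ℂ → ℂ → ℂ) (m ε : ℂ) : ℂ :=
  de F (θ (m - ε / 2) ε) (θ (m + ε / 2) ε) * dx θ (m + ε / 2) ε

/-- `J = c (1 + D a)` -/
noncomputable def JJ (F θ : ℂ → ℂ → ℂ) (m ε : ℂ) : ℂ := cF F θ m ε * (1 + Dl (aa θ) m ε)

/-- the error of the division -/
noncomputable def f1 (F θ S : ℂ → ℂ → ℂ) (m ε : ℂ) : ℂ :=
  fF F θ m ε - mn (fF F θ) ε - Dl S m ε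

/-- `G = A S_x + (P - Q) / 2 + f₀'` -/
noncomputable def GG (F θ S : ℂ → ℂ → ℂ) (m ε : ℂ) : ℂ :=
  Av (dx S) m ε + (PP F θ m ε - QQ F θ m ε) / 2 + deriv (mn (fF F θ)) ε

/-- `V = S_ε - a (S_x + f₀')` -/
noncomputable def VV (F θ S : ℂ → ℂ → ℂ) (x ε : ℂ) : ℂ :=
  de S x ε - aa θ x ε * (dx S x ε + deriv (mn (fF F θ)) ε)

section

variable {F θ S : ℂ → ℂ → ℂ} {Ω : Set (ℂ × ℂ)} {r e : ℝ}

theorem hasDerivAt_hp {f : ℂ → ℂ → ℂ} {x ε : ℂ}
    (h : DifferentiableAt ℂ (un f) (x + ε / 2, ε)) :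
    HasDerivAt (fun t => f (t + ε / 2) ε) (dx f (x + ε / 2) ε) x ∧
      HasDerivAt (fun t => f (x + t / 2) t) (dx f (x + ε / 2) ε / 2 + de f (x + ε / 2) ε) ε := by
  constructor
  · have := chain (u := fun t => t + ε / 2) (v := fun _ => ε) (t := x) h
      ((hasDerivAt_id x).add_const _) (hasDerivAt_const _ _)
    simpa using this
  · have := chain (u := fun t => x + t / 2) (v := fun t => t) (t := ε) h
      (((hasDerivAt_id ε).div_const 2).const_add x) (hasDerivAt_id _)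
    convert this using 1
    ring

theorem hasDerivAt_hm {f : ℂ → ℂ → ℂ} {x ε : ℂ}
    (h : DifferentiableAt ℂ (un f) (x - ε / 2, ε)) :
    HasDerivAt (fun t => f (t - ε / 2) ε) (dx f (x - ε / 2) ε) x ∧
      HasDerivAt (fun t => f (x - t / 2) t) (-dx f (x - ε / 2) ε / 2 + de f (x - ε / 2) ε) ε := by
  constructor
  · have := chain (u := fun t => t - ε / 2) (v := fun _ => ε) (t := x) h
      ((hasDerivAt_id x).sub_const _) (hasDerivAt_const _ _)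
    simpa using this
  · have := chain (u := fun t => x - t / 2) (v := fun t => t) (t := ε) h
      (((hasDerivAt_id ε).div_const 2).const_sub x) (hasDerivAt_id _)
    convert this using 1
    ring

theorem hasDerivAt_op {f : ℂ → ℂ → ℂ} {x ε : ℂ}
    (h : DifferentiableAt ℂ (un f) (x + ε, ε)) :
    HasDerivAt (fun t => f (t + ε) ε) (dx f (x + ε) ε) x ∧
      HasDerivAt (fun t => f (x + t) t) (dx f (x + ε) ε + de f (x + ε) ε) ε := by
  constructor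
  · have := chain (u := fun t => t + ε) (v := fun _ => ε) (t := x) h
      ((hasDerivAt_id x).add_const _) (hasDerivAt_const _ _)
    simpa using this
  · have := chain (u := fun t => x + t) (v := fun t => t) (t := ε) h
      ((hasDerivAt_id ε).const_add x) (hasDerivAt_id _)
    convert this using 1
    ring

theorem hasDerivAt_om {f : ℂ → ℂ → ℂ} {x ε : ℂ}
    (h : DifferentiableAt ℂ (un f) (x - ε, ε)) :
    HasDerivAt (fun t => f (t - ε) ε) (dx f (x - ε) ε) x ∧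
      HasDerivAt (fun t => f (x - t) t) (-dx f (x - ε) ε + de f (x - ε) ε) ε := by
  constructor
  · have := chain (u := fun t => t - ε) (v := fun _ => ε) (t := x) h
      ((hasDerivAt_id x).sub_const _) (hasDerivAt_const _ _)
    simpa using this
  · have := chain (u := fun t => x - t) (v := fun t => t) (t := ε) h
      ((hasDerivAt_id ε).const_sub x) (hasDerivAt_id _)
    convert this using 1
    ring

/-- derivatives of the centred difference -/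
theorem dx_Dl {f : ℂ → ℂ → ℂ} {x ε : ℂ}
    (hp : DifferentiableAt ℂ (un f) (x + ε / 2, ε)) (hm : DifferentiableAt ℂ (un f) (x - ε / 2, ε)) :
    dx (Dl f) x ε = dx f (x + ε / 2) ε - dx f (x - ε / 2) ε :=
  ((hasDerivAt_hp hp).1.sub (hasDerivAt_hm hm).1).deriv

theorem de_Dl {f : ℂ → ℂ → ℂ} {x ε : ℂ}
    (hp : DifferentiableAt ℂ (un f) (x + ε / 2, ε)) (hm : DifferentiableAt ℂ (un f) (x - ε / 2, ε)) :
    de (Dl f) x ε = de f (x + ε / 2) ε - de f (x - ε / 2) ε +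
      (dx f (x + ε / 2) ε + dx f (x - ε / 2) ε) / 2 := by
  exact (((hasDerivAt_hp hp).2.sub (hasDerivAt_hm hm).2).deriv).trans (by ring)

/-- (i1) -/
theorem dx_fF (hF : JD F Ω) (hΩ : IsOpen Ω) (hθ : JD θ (WW 0 r e)) {m ε : ℂ}
    (h : (m, ε) ∈ WW (1 / 2) r e) (hadm : (θ (m - ε / 2) ε, θ (m + ε / 2) ε) ∈ Ω) :
    dx (fF F θ) m ε = PP F θ m ε + QQ F θ m ε := by
  have hm := half_mem (a := 0) (by simpa using h)
  have h1 := (hasDerivAt_hm (dat hθ (isOpen_WW _ _ _) hm.2)).1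
  have h2 := (hasDerivAt_hp (dat hθ (isOpen_WW _ _ _) hm.1)).1
  exact (chain (f := F) (u := fun t => θ (t - ε / 2) ε) (v := fun t => θ (t + ε / 2) ε)
    (dat hF hΩ hadm) h1 h2).deriv

theorem de_fF (hF : JD F Ω) (hΩ : IsOpen Ω) (hθ : JD θ (WW 0 r e)) {m ε : ℂ}
    (h : (m, ε) ∈ WW (1 / 2) r e) (hadm : (θ (m - ε / 2) ε, θ (m + ε / 2) ε) ∈ Ω)
    (hvm : dx θ (m - ε / 2) ε ≠ 0) (hvp : dx θ (m + ε / 2) ε ≠ 0) :
    de (fF F θ) m ε = PP F θ m ε * (-1 / 2 + aa θ (m - ε / 2) ε) +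
      QQ F θ m ε * (1 / 2 + aa θ (m + ε / 2) ε) := by
  have hm := half_mem (a := 0) (by simpa using h)
  have h1 := (hasDerivAt_hm (dat hθ (isOpen_WW _ _ _) hm.2)).2
  have h2 := (hasDerivAt_hp (dat hθ (isOpen_WW _ _ _) hm.1)).2
  have := (chain (f := F) (u := fun t => θ (m - t / 2) t) (v := fun t => θ (m + t / 2) t)
    (dat hF hΩ hadm) h1 h2).deriv
  refine this.trans ?_
  have a1 : aa θ (m - ε / 2) ε * dx θ (m - ε / 2) ε = de θ (m - ε / 2) ε := div_mul_cancel₀ _ hvm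
  have a2 : aa θ (m + ε / 2) ε * dx θ (m + ε / 2) ε = de θ (m + ε / 2) ε := div_mul_cancel₀ _ hvp
  unfold PP QQ
  linear_combination (-dx F (θ (m - ε / 2) ε) (θ (m + ε / 2) ε)) * a1 -
    de F (θ (m - ε / 2) ε) (θ (m + ε / 2) ε) * a2

/-- (i3) -/
theorem DG_eq (hF : JD F Ω) (hΩ : IsOpen Ω) (hθ : JD θ (WW 0 r e)) (hS : JD S (WW 0 r e))
    (hadm : ∀ m ε : ℂ, (m, ε) ∈ WW (1 / 2) r e → (θ (m - ε / 2) ε, θ (m + ε / 2) ε) ∈ Ω)
    {x ε : ℂ} (h : (x, ε) ∈ WW 1 r e) :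
    Dl (GG F θ S) x ε = dx θ x ε * EE F θ x ε - Av (dx (f1 F θ S)) x ε := by
  have hh := half_mem (a := 1 / 2) (r := r) (e := e) (x := x) (ε := ε) (by norm_num; exact h)
  have ho := one_mem (a := 0) (r := r) (e := e) (x := x) (ε := ε) (by simpa using h)
  have hx : (x, ε) ∈ WW 0 r e := WW_mono (by norm_num) le_rfl le_rfl h
  have hW := isOpen_WW 0 r e
  have key : ∀ m : ℂ, (m, ε) ∈ WW (1 / 2) r e → dx (f1 F θ S) m ε =
      PP F θ m ε + QQ F θ m ε - (dx S (m + ε / 2) ε - dx S (m - ε / 2) ε) := by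
    intro m hm
    have hm' := half_mem (a := 0) (by simpa using hm)
    have h1 := (hasDerivAt_hm (dat hθ hW hm'.2)).1
    have h2 := (hasDerivAt_hp (dat hθ hW hm'.1)).1
    have h3 := chain (f := F) (u := fun t => θ (t - ε / 2) ε) (v := fun t => θ (t + ε / 2) ε)
      (dat hF hΩ (hadm m ε hm)) h1 h2
    have h4 := (hasDerivAt_hm (dat hS hW hm'.2)).1
    have h5 := (hasDerivAt_hp (dat hS hW hm'.1)).1
    exact ((h3.sub_const (mn (fF F θ) ε)).sub (h5.sub h4)).deriv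
  have e1 : x + ε / 2 + ε / 2 = x + ε := by ring
  have e2 : x + ε / 2 - ε / 2 = x := by ring
  have e3 : x - ε / 2 + ε / 2 = x := by ring
  have e4 : x - ε / 2 - ε / 2 = x - ε := by ring
  unfold Dl Av
  rw [key _ hh.1, key _ hh.2]
  unfold GG PP QQ EE Av
  rw [e1, e2, e3, e4]
  ring

/-- (i4) -/
theorem DV_eq (hF : JD F Ω) (hΩ : IsOpen Ω) (hθ : JD θ (WW 0 r e)) (hS : JD S (WW 0 r e))
    (hmn : ∀ ε : ℂ, ‖ε‖ < e → DifferentiableAt ℂ (mn (fF F θ)) ε)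
    (hadm : ∀ m ε : ℂ, (m, ε) ∈ WW (1 / 2) r e → (θ (m - ε / 2) ε, θ (m + ε / 2) ε) ∈ Ω)
    (hv : ∀ x ε : ℂ, (x, ε) ∈ WW 0 r e → dx θ x ε ≠ 0)
    {m ε : ℂ} (h : (m, ε) ∈ WW (1 / 2) r e) :
    Dl (VV F θ S) m ε = -(1 + Dl (aa θ) m ε) * GG F θ S m ε - de (f1 F θ S) m ε +
      Av (aa θ) m ε * dx (f1 F θ S) m ε := by
  have hm' := half_mem (a := 0) (by simpa using h)
  have hW := isOpen_WW 0 r e
  have k1 : dx (f1 F θ S) m ε =
      PP F θ m ε + QQ F θ m ε - (dx S (m + ε / 2) ε - dx S (m - ε / 2) ε) := by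
    have h1 := (hasDerivAt_hm (dat hθ hW hm'.2)).1
    have h2 := (hasDerivAt_hp (dat hθ hW hm'.1)).1
    have h3 := chain (f := F) (u := fun t => θ (t - ε / 2) ε) (v := fun t => θ (t + ε / 2) ε)
      (dat hF hΩ (hadm m ε h)) h1 h2
    have h4 := (hasDerivAt_hm (dat hS hW hm'.2)).1
    have h5 := (hasDerivAt_hp (dat hS hW hm'.1)).1
    exact ((h3.sub_const (mn (fF F θ) ε)).sub (h5.sub h4)).deriv
  have k2 : de (f1 F θ S) m ε =
      PP F θ m ε * (-1 / 2 + aa θ (m - ε / 2) ε) + QQ F θ m ε * (1 / 2 + aa θ (m + ε / 2) ε)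
        - deriv (mn (fF F θ)) ε - (de S (m + ε / 2) ε - de S (m - ε / 2) ε +
      (dx S (m + ε / 2) ε + dx S (m - ε / 2) ε) / 2) := by
    have h1 := (hasDerivAt_hm (dat hθ hW hm'.2)).2
    have h2 := (hasDerivAt_hp (dat hθ hW hm'.1)).2
    have h3 := chain (f := F) (u := fun t => θ (m - t / 2) t) (v := fun t => θ (m + t / 2) t)
      (dat hF hΩ (hadm m ε h)) h1 h2
    have h4 := (hasDerivAt_hm (dat hS hW hm'.2)).2
    have h5 := (hasDerivAt_hp (dat hS hW hm'.1)).2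
    have h6 := ((h3.sub (hmn ε h.1).hasDerivAt).sub (h5.sub h4)).deriv
    refine h6.trans ?_
    have a1 : aa θ (m - ε / 2) ε * dx θ (m - ε / 2) ε = de θ (m - ε / 2) ε :=
      div_mul_cancel₀ _ (hv _ _ hm'.2)
    have a2 : aa θ (m + ε / 2) ε * dx θ (m + ε / 2) ε = de θ (m + ε / 2) ε :=
      div_mul_cancel₀ _ (hv _ _ hm'.1)
    unfold PP QQ
    linear_combination (-dx F (θ (m - ε / 2) ε) (θ (m + ε / 2) ε)) * a1 -
      de F (θ (m - ε / 2) ε) (θ (m + ε / 2) ε) * a2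
  rw [k1, k2]
  unfold Dl VV GG Av
  ring

/-- derivatives of the Euler-Lagrange error -/
theorem dx_EE (hF : JD F Ω) (hΩ : IsOpen Ω) (hθ : JD θ (WW 0 r e)) {x ε : ℂ}
    (h : (x, ε) ∈ WW 1 r e) (hm : (θ (x - ε) ε, θ x ε) ∈ Ω) (hp : (θ x ε, θ (x + ε) ε) ∈ Ω) :
    dx (EE F θ) x ε =
      (dx (de F) (θ (x - ε) ε) (θ x ε) * dx θ (x - ε) ε +
        de (de F) (θ (x - ε) ε) (θ x ε) * dx θ x ε) +
      (dx (dx F) (θ x ε) (θ (x + ε) ε) * dx θ x ε +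
        dx (de F) (θ x ε) (θ (x + ε) ε) * dx θ (x + ε) ε) := by
  have ho := one_mem (a := 0) (r := r) (e := e) (x := x) (ε := ε) (by simpa using h)
  have hx : (x, ε) ∈ WW 0 r e := WW_mono (by norm_num) le_rfl le_rfl h
  have hW := isOpen_WW 0 r e
  have h1 := (hasDerivAt_om (dat hθ hW ho.2)).1
  have h2 := (hasDerivAt_op (dat hθ hW ho.1)).1
  have h0 : HasDerivAt (fun t => θ t ε) (dx θ x ε) x := by
    have := dat_dx (dat hθ hW hx)
    rwa [← dx_eq (dat hθ hW hx)] at this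
  have k1 := chain (f := de F) (u := fun t => θ (t - ε) ε) (v := fun t => θ t ε)
    (dat (JD.de hF hΩ) hΩ hm) h1 h0
  have k2 := chain (f := dx F) (u := fun t => θ t ε) (v := fun t => θ (t + ε) ε)
    (dat (JD.dx hF hΩ) hΩ hp) h0 h2
  rw [mixed hF hΩ hp] at k2
  exact (k1.add k2).deriv

theorem de_EE (hF : JD F Ω) (hΩ : IsOpen Ω) (hθ : JD θ (WW 0 r e)) {x ε : ℂ}
    (h : (x, ε) ∈ WW 1 r e) (hm : (θ (x - ε) ε, θ x ε) ∈ Ω) (hp : (θ x ε, θ (x + ε) ε) ∈ Ω) :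
    de (EE F θ) x ε =
      (dx (de F) (θ (x - ε) ε) (θ x ε) * (-dx θ (x - ε) ε + de θ (x - ε) ε) +
        de (de F) (θ (x - ε) ε) (θ x ε) * de θ x ε) +
      (dx (dx F) (θ x ε) (θ (x + ε) ε) * de θ x ε +
        dx (de F) (θ x ε) (θ (x + ε) ε) * (dx θ (x + ε) ε + de θ (x + ε) ε)) := by
  have ho := one_mem (a := 0) (r := r) (e := e) (x := x) (ε := ε) (by simpa using h)
  have hx : (x, ε) ∈ WW 0 r e := WW_mono (by norm_num) le_rfl le_rfl h
  have hW := isOpen_WW 0 r e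
  have h1 := (hasDerivAt_om (dat hθ hW ho.2)).2
  have h2 := (hasDerivAt_op (dat hθ hW ho.1)).2
  have h0 : HasDerivAt (fun t => θ x t) (de θ x ε) ε := by
    have := dat_de (dat hθ hW hx)
    rwa [← de_eq (dat hθ hW hx)] at this
  have k1 := chain (f := de F) (u := fun t => θ (x - t) t) (v := fun t => θ x t)
    (dat (JD.de hF hΩ) hΩ hm) h1 h0
  have k2 := chain (f := dx F) (u := fun t => θ x t) (v := fun t => θ (x + t) t)
    (dat (JD.dx hF hΩ) hΩ hp) h0 h2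
  rw [mixed hF hΩ hp] at k2
  exact (k1.add k2).deriv

/-- (i2) -/
theorem DJ_eq (hF : JD F Ω) (hΩ : IsOpen Ω) (hθ : JD θ (WW 0 r e))
    (hadm : ∀ m ε : ℂ, (m, ε) ∈ WW (1 / 2) r e → (θ (m - ε / 2) ε, θ (m + ε / 2) ε) ∈ Ω)
    (hv : ∀ x ε : ℂ, (x, ε) ∈ WW 0 r e → dx θ x ε ≠ 0)
    {x ε : ℂ} (h : (x, ε) ∈ WW 1 r e) :
    Dl (JJ F θ) x ε = dx θ x ε * (aa θ x ε * dx (EE F θ) x ε - de (EE F θ) x ε) := by
  have hh := half_mem (a := 1 / 2) (r := r) (e := e) (x := x) (ε := ε) (by norm_num; exact h)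
  have ho := one_mem (a := 0) (r := r) (e := e) (x := x) (ε := ε) (by simpa using h)
  have hx : (x, ε) ∈ WW 0 r e := WW_mono (by norm_num) le_rfl le_rfl h
  have e1 : x + ε / 2 + ε / 2 = x + ε := by ring
  have e2 : x + ε / 2 - ε / 2 = x := by ring
  have e3 : x - ε / 2 + ε / 2 = x := by ring
  have e4 : x - ε / 2 - ε / 2 = x - ε := by ring
  have hp := hadm _ _ hh.1
  have hm := hadm _ _ hh.2
  rw [e1, e2] at hp
  rw [e3, e4] at hm
  rw [dx_EE hF hΩ hθ h hm hp, de_EE hF hΩ hθ h hm hp]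
  have v1 := hv _ _ ho.1
  have v2 := hv _ _ ho.2
  have v3 := hv _ _ hx
  unfold Dl JJ cF Dl aa
  rw [e1, e2, e3, e4]
  field_simp
  ring

/-- the linearised Euler-Lagrange operator at `v U` -/
theorem lin_eq (hF : JD F Ω) (hΩ : IsOpen Ω) (hθ : JD θ (WW 0 r e)) {U : ℂ → ℂ → ℂ}
    (hadm : ∀ m ε : ℂ, (m, ε) ∈ WW (1 / 2) r e → (θ (m - ε / 2) ε, θ (m + ε / 2) ε) ∈ Ω)
    {x ε : ℂ} (h : (x, ε) ∈ WW 1 r e) :
    dx θ x ε *
      ((dx (de F) (θ (x - ε) ε) (θ x ε) * (dx θ (x - ε) ε * U (x - ε) ε) +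
        de (de F) (θ (x - ε) ε) (θ x ε) * (dx θ x ε * U x ε)) +
      (dx (dx F) (θ x ε) (θ (x + ε) ε) * (dx θ x ε * U x ε) +
        dx (de F) (θ x ε) (θ (x + ε) ε) * (dx θ (x + ε) ε * U (x + ε) ε))) =
    -Dl (fun y η => cF F θ y η * Dl U y η) x ε + dx θ x ε * dx (EE F θ) x ε * U x ε := by
  have hh := half_mem (a := 1 / 2) (r := r) (e := e) (x := x) (ε := ε) (by norm_num; exact h)
  have e1 : x + ε / 2 + ε / 2 = x + ε := by ring
  have e2 : x + ε / 2 - ε / 2 = x := by ring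
  have e3 : x - ε / 2 + ε / 2 = x := by ring
  have e4 : x - ε / 2 - ε / 2 = x - ε := by ring
  have hp := hadm _ _ hh.1
  have hm := hadm _ _ hh.2
  rw [e1, e2] at hp
  rw [e3, e4] at hm
  rw [dx_EE hF hΩ hθ h hm hp]
  unfold Dl cF
  dsimp only
  rw [e1, e2, e3, e4]
  ring

end

end Vale.Agent.P097.TA.H477
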