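import Mathlib
import Vale.Agent.P097.H477.Ident

/-! # P097 / Theorem A, package A5: bounds for the generating function near the diagonal -/

set_option linter.all false

open Set Filter Metric Topology
open scoped ComplexConjugate

namespace Vale.Agent.P097.TA.H477

open Vale.Agent.P097.TA

/-- second order Taylor remainder in one variable -/
theorem taylor2 {φ : ℂ → ℂ} {T A : ℝ} (hT : 1 < T) (hd : DifferentiableOn ℂ φ (ball 0 T))
    (hA : ∀ t ∈ ball (0 : ℂ) T, ‖φ t‖ ≤ A) :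
    ‖φ 1 - φ 0 - deriv φ 0‖ ≤ 3 * A / T ^ 2 := by
  have hT0 : 0 < T := by linarith
  have h0 : (0 : ℂ) ∈ ball (0 : ℂ) T := mem_ball_self hT0
  have hA0 : 0 ≤ A := (norm_nonneg _).trans (hA 0 h0)
  have hder : HasDerivAt φ (deriv φ 0) 0 :=
    (hd.differentiableAt (isOpen_ball.mem_nhds h0)).hasDerivAt
  have hder0 : ‖deriv φ 0‖ ≤ A / T := by
    have key : ∀ s : ℝ, 0 < s → s < T → ‖deriv φ 0‖ ≤ A / s := by
      intro s hs hsT
      apply Complex.norm_deriv_le_of_forall_mem_sphere_norm_le hs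
      · exact (hd.mono (closedBall_subset_ball hsT)).diffContOnCl_ball (le_refl _)
      · intro z hz
        exact hA z (by rw [mem_sphere_zero_iff_norm] at hz; rw [mem_ball_zero_iff, hz]; exact hsT)
    have hlim : Tendsto (fun s : ℝ => A / s) (𝓝[<] T) (𝓝 (A / T)) := by
      apply tendsto_nhdsWithin_of_tendsto_nhds
      exact tendsto_const_nhds.div tendsto_id (by positivity)
    have hev : ∀ᶠ s : ℝ in 𝓝[<] T, ‖deriv φ 0‖ ≤ A / s := by
      have : Ioo 0 T ∈ 𝓝[<] T := Ioo_mem_nhdsLT (by positivity)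
      filter_upwards [this] with s hs using key s hs.1 hs.2
    exact ge_of_tendsto hlim hev
  set g : ℂ → ℂ := fun t => φ t - φ 0 - deriv φ 0 * t with hg
  have hgd : DifferentiableOn ℂ g (ball 0 T) :=
    (hd.sub_const _).sub ((differentiableOn_const _).mul differentiableOn_id)
  have hg0 : g 0 = 0 := by simp [hg]
  have hmaps : MapsTo g (ball 0 T) (closedBall (g 0) (3 * A)) := by
    intro t ht
    rw [hg0, mem_closedBall_zero_iff]
    have h1 := hA t ht
    have h2 := hA 0 h0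
    have h3 : ‖deriv φ 0 * t‖ ≤ A := by
      rw [norm_mul]
      have h4 : ‖t‖ ≤ T := (mem_ball_zero_iff.1 ht).le
      calc ‖deriv φ 0‖ * ‖t‖ ≤ A / T * T := by gcongr
        _ = A := by field_simp
    calc ‖φ t - φ 0 - deriv φ 0 * t‖ ≤ ‖φ t - φ 0‖ + ‖deriv φ 0 * t‖ := norm_sub_le _ _
      _ ≤ (‖φ t‖ + ‖φ 0‖) + ‖deriv φ 0 * t‖ := by gcongr; exact norm_sub_le _ _
      _ ≤ 3 * A := by linarith
  have hn : (g · - g 0) =o[𝓝 (0 : ℂ)] (fun w => ‖w - 0‖ ^ 1) := by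
    have := hder.isLittleO
    rw [hg0]
    simp only [sub_zero, pow_one]
    refine Asymptotics.IsLittleO.norm_right ?_
    refine (this.congr' ?_ ?_)
    · filter_upwards with t
      simp [hg, mul_comm]
    · filter_upwards with t
      simp
  have h1 : (1 : ℂ) ∈ ball (0 : ℂ) T := by
    rw [mem_ball_zero_iff]; simpa using hT
  have := Complex.dist_le_mul_div_pow_of_mapsTo_ball_of_isLittleO hgd hmaps hn h1
  rw [hg0, dist_zero_right, dist_zero_right] at this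
  simp only [hg, mul_one, norm_one] at this
  calc _ ≤ 3 * A * (1 / T) ^ (1 + 1) := this
    _ = 3 * A / T ^ 2 := by
      rw [show (1 : ℕ) + 1 = 2 from rfl, div_pow, one_pow, mul_one_div]

/-- neighbourhood of the diagonal -/
def Om (s t : ℝ) : Set (ℂ × ℂ) := {p | |((p.1 + p.2) / 2).im| < s ∧ ‖p.2 - p.1‖ < t}

theorem mem_Om {s t : ℝ} {x y : ℂ} :
    (x, y) ∈ Om s t ↔ |((x + y) / 2).im| < s ∧ ‖y - x‖ < t := Iff.rfl

theorem isOpen_Om (s t : ℝ) : IsOpen (Om s t) := by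
  have h1 : IsOpen {p : ℂ × ℂ | |((p.1 + p.2) / 2).im| < s} := by
    apply isOpen_lt _ continuous_const
    have : Continuous fun p : ℂ × ℂ => ((p.1 + p.2) / 2).im :=
      Complex.continuous_im.comp (by fun_prop)
    exact this.abs
  have h2 : IsOpen {p : ℂ × ℂ | ‖p.2 - p.1‖ < t} := isOpen_lt (by fun_prop) (by fun_prop)
  exact h1.inter h2

theorem Om_mono {s s' t t' : ℝ} (hs : s' ≤ s) (ht : t' ≤ t) : Om s' t' ⊆ Om s t :=
  fun _ h => ⟨h.1.trans_le hs, h.2.trans_le ht⟩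

/-- moving both points by at most `δ` -/
theorem Om_move {s s' t t' δ : ℝ} {x y u w : ℂ} (h : (x, y) ∈ Om s' t') (hu : ‖u‖ ≤ δ)
    (hw : ‖w‖ ≤ δ) (h1 : s' + δ ≤ s) (h2 : t' + 2 * δ ≤ t) : (x + u, y + w) ∈ Om s t := by
  rw [mem_Om] at h ⊢
  constructor
  · have e1 : ((x + u + (y + w)) / 2).im = ((x + y) / 2).im + ((u + w) / 2).im := by
      rw [← Complex.add_im]; congr 1; ring
    have e2 : |((u + w) / 2).im| ≤ δ := by
      refine (Complex.abs_im_le_norm _).trans ?_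
      rw [norm_div, Complex.norm_two]
      have := norm_add_le u w
      linarith
    rw [e1]
    have := abs_add_le ((x + y) / 2).im ((u + w) / 2).im
    linarith [h.1]
  · have e1 : y + w - (x + u) = (y - x) + (w - u) := by ring
    rw [e1]
    have h3 := norm_add_le (y - x) (w - u)
    have h4 := norm_sub_le w u
    linarith [h.2]

/-- Cauchy bounds near the diagonal -/
theorem Om_dx {N : ℂ → ℂ → ℂ} {s t δ A : ℝ} (hN : JD N (Om s t))
    (hA : Bd N A (Om s t)) (hδ : 0 < δ) :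
    Bd (dx N) (A / δ) (Om (s - δ) (t - 2 * δ)) := by
  intro x y h
  have hsub : ∀ z ∈ closedBall x δ, (z, y) ∈ Om s t := by
    intro z hz
    have h1 : ‖z - x‖ ≤ δ := by rwa [mem_closedBall, dist_eq_norm] at hz
    have := Om_move (s := s) (t := t) (u := z - x) (w := 0) h h1 (by simpa using hδ.le)
      (by linarith) (by linarith)
    rwa [add_sub_cancel, add_zero] at this
  refine Complex.norm_deriv_le_of_forall_mem_sphere_norm_le hδ ?_ ?_
  · exact (hN.differentiableOn_x (U := closedBall x δ) hsub).diffContOnCl_ball (le_refl _)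
  · intro z hz
    exact hA _ _ (hsub z (sphere_subset_closedBall hz))

theorem Om_de {N : ℂ → ℂ → ℂ} {s t δ A : ℝ} (hN : JD N (Om s t))
    (hA : Bd N A (Om s t)) (hδ : 0 < δ) :
    Bd (de N) (A / δ) (Om (s - δ) (t - 2 * δ)) := by
  intro x y h
  have hsub : ∀ z ∈ closedBall y δ, (x, z) ∈ Om s t := by
    intro z hz
    have h1 : ‖z - y‖ ≤ δ := by rwa [mem_closedBall, dist_eq_norm] at hz
    have := Om_move (s := s) (t := t) (u := 0) (w := z - y) h (by simpa using hδ.le) h1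
      (by linarith) (by linarith)
    rwa [add_sub_cancel, add_zero] at this
  refine Complex.norm_deriv_le_of_forall_mem_sphere_norm_le hδ ?_ ?_
  · exact (hN.differentiableOn_e (U := closedBall y δ) hsub).diffContOnCl_ball (le_refl _)
  · intro z hz
    exact hA _ _ (hsub z (sphere_subset_closedBall hz))

/-- Taylor remainder of order two near the diagonal -/
theorem Om_taylor {N : ℂ → ℂ → ℂ} {s t δ A η : ℝ} (hN : JD N (Om s t))
    (hA : Bd N A (Om s t)) (hη : 0 ≤ η) (hηδ : 2 * η ≤ δ) (hδ : 0 < δ) {x y u w : ℂ}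
    (h : (x, y) ∈ Om (s - δ) (t - 2 * δ)) (hu : ‖u‖ ≤ η) (hw : ‖w‖ ≤ η) :
    ‖N (x + u) (y + w) - N x y - (dx N x y * u + de N x y * w)‖ ≤ 3 * A / δ ^ 2 * η ^ 2 := by
  have hxy : (x, y) ∈ Om s t := Om_mono (by linarith) (by linarith) h
  have hA0 : 0 ≤ A := (norm_nonneg _).trans (hA _ _ hxy)
  rcases hη.eq_or_lt with h0 | hpos
  · have hu0 : u = 0 := by rw [← norm_le_zero_iff]; linarith
    have hw0 : w = 0 := by rw [← norm_le_zero_iff]; linarith
    subst hu0 hw0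
    simp
    positivity
  · set T : ℝ := δ / η with hT
    have hT2 : 2 ≤ T := by rw [hT, le_div_iff₀ hpos]; linarith
    set φ : ℂ → ℂ := fun z => N (x + z * u) (y + z * w) with hφ
    have hmem : ∀ z ∈ ball (0 : ℂ) T, (x + z * u, y + z * w) ∈ Om s t := by
      intro z hz
      have hz' : ‖z‖ ≤ T := (mem_ball_zero_iff.1 hz).le
      have b : ∀ q : ℂ, ‖q‖ ≤ η → ‖z * q‖ ≤ δ := by
        intro q hq
        rw [norm_mul]
        calc ‖z‖ * ‖q‖ ≤ T * η := by gcongr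
          _ = δ := by rw [hT]; field_simp
      exact Om_move h (b u hu) (b w hw) (by linarith) (by linarith)
    have hd : DifferentiableOn ℂ φ (ball 0 T) := by
      have h1 : DifferentiableOn ℂ (fun z : ℂ => (x + z * u, y + z * w)) (ball 0 T) := by fun_prop
      exact DifferentiableOn.comp (g := fun p : ℂ × ℂ => N p.1 p.2) hN h1 hmem
    have hder : deriv φ 0 = dx N x y * u + de N x y * w := by
      have hu' : HasDerivAt (fun z : ℂ => x + z * u) u 0 := by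
        simpa using ((hasDerivAt_id (0 : ℂ)).mul_const u).const_add x
      have hw' : HasDerivAt (fun z : ℂ => y + z * w) w 0 := by
        simpa using ((hasDerivAt_id (0 : ℂ)).mul_const w).const_add y
      have := hN.hasDerivAt_comp (isOpen_Om s t) hu' hw' (by simpa using hxy)
      simpa using this.deriv
    have := taylor2 (by linarith : (1 : ℝ) < T) hd (fun z hz => hA _ _ (hmem z hz))
    rw [hder] at this
    simp only [hφ, one_mul, zero_mul, add_zero] at this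
    refine this.trans (le_of_eq ?_)
    rw [hT]; field_simp

/-- the part of order five of the generating function -/
noncomputable def Bg (b : ℂ → ℂ → ℂ) (x y : ℂ) : ℂ := (y - x) ^ 5 * b ((x + y) / 2) (y - x)

section

variable {ρ M : ℝ} {b : ℂ → ℂ → ℂ}

theorem JD_Bg (hG : Gen ρ M b) : JD (Bg b) (Om ρ ρ) := by
  have h1 : JD (fun x y : ℂ => b ((x + y) / 2) (y - x)) (Om ρ ρ) := by
    refine JD.comp hG.hol ?_ ?_ (fun x y h => h)
    · exact JD.div (JD.add JD.fst JD.snd) (JD.const 2) (fun _ _ _ => two_ne_zero)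
    · exact JD.sub JD.snd JD.fst
  exact JD.mul (JD.pow (JD.sub JD.snd JD.fst) 5) h1

theorem JD_Fg (hG : Gen ρ M b) : JD (Fg b) (Om ρ ρ) := by
  have h1 : JD (fun x y : ℂ => (y - x) ^ 3 / 6) (Om ρ ρ) :=
    JD.div (JD.pow (JD.sub JD.snd JD.fst) 3) (JD.const 6) (fun _ _ _ => by norm_num)
  exact JD.add h1 (JD_Bg hG)

theorem Bd_Bg (hG : Gen ρ M b) {t : ℝ} (ht : t ≤ ρ) (ht0 : 0 ≤ t) :
    Bd (Bg b) (M * t ^ 5) (Om ρ t) := by
  intro x y h
  rw [mem_Om] at h
  unfold Bg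
  rw [norm_mul, norm_pow, mul_comm]
  have h1 := hG.bd _ _ h.1 (h.2.trans_le ht)
  have hM : 0 ≤ M := by linarith [hG.hM]
  gcongr
  exact h.2.le

theorem Bg_anti (hG : Gen ρ M b) {x y : ℂ} (h : (x, y) ∈ Om ρ ρ) : Bg b y x = -Bg b x y := by
  rw [mem_Om] at h
  unfold Bg
  have e1 : b ((y + x) / 2) (x - y) = b ((x + y) / 2) (y - x) := by
    rw [add_comm y x, ← hG.even _ _ h.1 h.2]; congr 1; ring
  rw [e1]; ring

theorem Om_swap {s t : ℝ} {x y : ℂ} (h : (x, y) ∈ Om s t) : (y, x) ∈ Om s t := by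
  rw [mem_Om] at h ⊢
  rw [add_comm y x, norm_sub_rev]; exact h

theorem Fg_anti (hG : Gen ρ M b) {x y : ℂ} (h : (x, y) ∈ Om ρ ρ) : Fg b y x = -Fg b x y := by
  have h1 : Fg b y x = (x - y) ^ 3 / 6 + Bg b y x := rfl
  have h2 : Fg b x y = (y - x) ^ 3 / 6 + Bg b x y := rfl
  rw [h1, h2, Bg_anti hG h]; ring

theorem dx_Fg (hG : Gen ρ M b) {x y : ℂ} (h : (x, y) ∈ Om ρ ρ) :
    dx (Fg b) x y = -(y - x) ^ 2 / 2 + dx (Bg b) x y := by
  have h1 : HasDerivAt (fun t : ℂ => (y - t) ^ 3 / 6) (-(y - x) ^ 2 / 2) x := by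
    have := ((((hasDerivAt_id x).const_sub y)).fun_pow 3).div_const 6
    refine this.congr_deriv ?_
    simp only [id]
    push_cast
    ring
  exact (h1.add ((JD_Bg hG).hasDerivAt_x (isOpen_Om _ _) h)).deriv

theorem de_Fg (hG : Gen ρ M b) {x y : ℂ} (h : (x, y) ∈ Om ρ ρ) :
    de (Fg b) x y = (y - x) ^ 2 / 2 + de (Bg b) x y := by
  have h1 : HasDerivAt (fun t : ℂ => (t - x) ^ 3 / 6) ((y - x) ^ 2 / 2) y := by
    have := ((((hasDerivAt_id y).sub_const x)).fun_pow 3).div_const 6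
    refine this.congr_deriv ?_
    simp only [id]
    push_cast
    ring
  exact (h1.add ((JD_Bg hG).hasDerivAt_e (isOpen_Om _ _) h)).deriv

theorem ev_x {s t : ℝ} {x y : ℂ} (h : (x, y) ∈ Om s t) : ∀ᶠ z in 𝓝 x, (z, y) ∈ Om s t := by
  have hc : ContinuousAt (fun z : ℂ => (z, y)) x := by fun_prop
  exact hc.eventually ((isOpen_Om s t).mem_nhds h)

theorem ev_e {s t : ℝ} {x y : ℂ} (h : (x, y) ∈ Om s t) : ∀ᶠ z in 𝓝 y, (x, z) ∈ Om s t := by
  have hc : ContinuousAt (fun z : ℂ => (x, z)) y := by fun_prop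
  exact hc.eventually ((isOpen_Om s t).mem_nhds h)

theorem dxde_Fg (hG : Gen ρ M b) {x y : ℂ} (h : (x, y) ∈ Om ρ ρ) :
    dx (de (Fg b)) x y = -(y - x) + dx (de (Bg b)) x y := by
  have h1 : HasDerivAt (fun t : ℂ => (y - t) ^ 2 / 2) (-(y - x)) x := by
    have := ((((hasDerivAt_id x).const_sub y)).fun_pow 2).div_const 2
    refine this.congr_deriv ?_
    simp only [id]
    push_cast
    ring
  have h2 := h1.add (((JD_Bg hG).de (isOpen_Om _ _)).hasDerivAt_x (isOpen_Om _ _) h)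
  refine Filter.EventuallyEq.deriv_eq (?_ : (fun t => de (Fg b) t y) =ᶠ[𝓝 x] _) |>.trans h2.deriv
  filter_upwards [ev_x h] with t ht using de_Fg hG ht

theorem dxdx_Fg (hG : Gen ρ M b) {x y : ℂ} (h : (x, y) ∈ Om ρ ρ) :
    dx (dx (Fg b)) x y = (y - x) + dx (dx (Bg b)) x y := by
  have h1 : HasDerivAt (fun t : ℂ => -(y - t) ^ 2 / 2) (y - x) x := by
    have := (((((hasDerivAt_id x).const_sub y)).fun_pow 2).fun_neg).div_const 2
    refine this.congr_deriv ?_
    simp only [id]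
    push_cast
    ring
  have h2 := h1.add (((JD_Bg hG).dx (isOpen_Om _ _)).hasDerivAt_x (isOpen_Om _ _) h)
  refine Filter.EventuallyEq.deriv_eq (?_ : (fun t => dx (Fg b) t y) =ᶠ[𝓝 x] _) |>.trans h2.deriv
  filter_upwards [ev_x h] with t ht using dx_Fg hG ht

theorem dede_Fg (hG : Gen ρ M b) {x y : ℂ} (h : (x, y) ∈ Om ρ ρ) :
    de (de (Fg b)) x y = (y - x) + de (de (Bg b)) x y := by
  have h1 : HasDerivAt (fun t : ℂ => (t - x) ^ 2 / 2) (y - x) y := by
    have := ((((hasDerivAt_id y).sub_const x)).fun_pow 2).div_const 2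
    refine this.congr_deriv ?_
    simp only [id]
    push_cast
    ring
  have h2 := h1.add (((JD_Bg hG).de (isOpen_Om _ _)).hasDerivAt_e (isOpen_Om _ _) h)
  refine Filter.EventuallyEq.deriv_eq (?_ : (fun t => de (Fg b) x t) =ᶠ[𝓝 y] _) |>.trans h2.deriv
  filter_upwards [ev_e h] with t ht using de_Fg hG ht

/-- the mixed derivative vanishes on the diagonal -/
theorem dxde_Bg_diag (hG : Gen ρ M b) {m : ℂ} (h : |m.im| < ρ) : dx (de (Bg b)) m m = 0 := by
  have hρ := hG.hρ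
  have hm : (m, m) ∈ Om ρ ρ := by
    rw [mem_Om]
    constructor
    · have : (m + m) / 2 = m := by ring
      rw [this]; exact h
    · simpa using hρ
  have hB := JD_Bg hG
  have h1 : ∀ᶠ t in 𝓝 m, de (Bg b) t m = -dx (Bg b) m t := by
    filter_upwards [ev_x hm] with t ht
    have h2 : (fun s => Bg b t s) =ᶠ[𝓝 m] fun s => -Bg b s t := by
      filter_upwards [ev_e ht] with s hs
      have := Bg_anti hG (Om_swap hs)
      exact this
    show deriv (fun s => Bg b t s) m = -deriv (fun s => Bg b s t) m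
    rw [h2.deriv_eq, deriv.fun_neg]
  have h3 : dx (de (Bg b)) m m = -de (dx (Bg b)) m m := by
    show deriv (fun t => de (Bg b) t m) m = -deriv (fun t => dx (Bg b) m t) m
    have h1' : (fun t => de (Bg b) t m) =ᶠ[𝓝 m] fun t => -dx (Bg b) m t := h1
    rw [h1'.deriv_eq, deriv.fun_neg]
  have h4 := hB.dx_de (isOpen_Om _ _) hm
  rw [← h4] at h3
  have h5 : (2 : ℂ) * dx (de (Bg b)) m m = 0 := by linear_combination h3
  simpa using h5

/-- bounds for the first derivatives of the fifth order part -/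
theorem Bd_dxB (hG : Gen ρ M b) {e : ℝ} (he : 0 < e) (h8 : 8 * e ≤ ρ) :
    Bd (dx (Bg b)) (M * 8 ^ 5 * e ^ 4) (Om (ρ - e) (6 * e)) := by
  have h1 := Om_dx (s := ρ) (t := 8 * e) (δ := e) ((JD_Bg hG).mono (Om_mono le_rfl h8))
    (Bd_Bg hG h8 (by positivity)) he
  intro x y h
  have := h1 x y (Om_mono le_rfl (by linarith) h)
  refine this.trans (le_of_eq ?_)
  field_simp

theorem Bd_deB (hG : Gen ρ M b) {e : ℝ} (he : 0 < e) (h8 : 8 * e ≤ ρ) :
    Bd (de (Bg b)) (M * 8 ^ 5 * e ^ 4) (Om (ρ - e) (6 * e)) := by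
  have h1 := Om_de (s := ρ) (t := 8 * e) (δ := e) ((JD_Bg hG).mono (Om_mono le_rfl h8))
    (Bd_Bg hG h8 (by positivity)) he
  intro x y h
  have := h1 x y (Om_mono le_rfl (by linarith) h)
  refine this.trans (le_of_eq ?_)
  field_simp

theorem Bd_dxdeB (hG : Gen ρ M b) {e : ℝ} (he : 0 < e) (h8 : 8 * e ≤ ρ) :
    Bd (dx (de (Bg b))) (M * 8 ^ 5 * e ^ 3) (Om (ρ - 2 * e) (4 * e)) := by
  have hJ : JD (de (Bg b)) (Om (ρ - e) (6 * e)) :=
    ((JD_Bg hG).de (isOpen_Om _ _)).mono (Om_mono (by linarith) (by linarith))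
  have h1 := Om_dx (δ := e) hJ (Bd_deB hG he h8) he
  intro x y h
  have := h1 x y (Om_mono (by linarith) (by linarith) h)
  refine this.trans (le_of_eq ?_)
  field_simp

/-- `F₁₂ = -(y - x) + O(e² |y - x|)` -/
theorem F12_near (hG : Gen ρ M b) {e : ℝ} (he : 0 < e) (h8 : 8 * e ≤ ρ) {x y : ℂ}
    (h : (x, y) ∈ Om (ρ - 2 * e) (4 * e)) :
    ‖dx (de (Fg b)) x y + (y - x)‖ ≤ M * 8 ^ 5 * e ^ 2 * ‖y - x‖ := by
  have hx : (x, y) ∈ Om ρ ρ := Om_mono (by linarith) (by linarith) h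
  rw [dxde_Fg hG hx]
  have e0 : -(y - x) + dx (de (Bg b)) x y + (y - x) = dx (de (Bg b)) x y := by ring
  rw [e0]
  set m : ℂ := (x + y) / 2 with hm
  have hmim : |m.im| < ρ - 2 * e := h.1
  set ψ : ℂ → ℂ := fun z => dx (de (Bg b)) (m - z / 2) (m + z / 2) with hψ
  have hmem : ∀ z ∈ ball (0 : ℂ) (4 * e), (m - z / 2, m + z / 2) ∈ Om (ρ - 2 * e) (4 * e) := by
    intro z hz
    rw [mem_Om]
    have e1 : (m - z / 2 + (m + z / 2)) / 2 = m := by ring
    have e2 : m + z / 2 - (m - z / 2) = z := by ring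
    rw [e1, e2]
    exact ⟨hmim, mem_ball_zero_iff.1 hz⟩
  have hJ : JD (dx (de (Bg b))) (Om (ρ - 2 * e) (4 * e)) :=
    (((JD_Bg hG).de (isOpen_Om _ _)).dx (isOpen_Om _ _)).mono
      (Om_mono (by linarith) (by linarith))
  have hd : DifferentiableOn ℂ ψ (ball 0 (4 * e)) := by
    have h1 : DifferentiableOn ℂ (fun z : ℂ => (m - z / 2, m + z / 2)) (ball 0 (4 * e)) := by
      fun_prop
    exact DifferentiableOn.comp (g := fun p : ℂ × ℂ => dx (de (Bg b)) p.1 p.2) hJ h1 hmem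
  have hψ0 : ψ 0 = 0 := by
    simp only [hψ, zero_div, sub_zero, add_zero]
    exact dxde_Bg_diag hG (by linarith)
  have hmaps : MapsTo ψ (ball 0 (4 * e)) (closedBall (ψ 0) (M * 8 ^ 5 * e ^ 3)) := by
    intro z hz
    rw [hψ0, mem_closedBall_zero_iff]
    exact Bd_dxdeB hG he h8 _ _ (hmem z hz)
  have hz : y - x ∈ ball (0 : ℂ) (4 * e) := mem_ball_zero_iff.2 h.2
  have := Complex.dist_le_div_mul_dist_of_mapsTo_ball hd hmaps hz
  rw [hψ0, dist_zero_right, dist_zero_right] at this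
  have e3 : ψ (y - x) = dx (de (Bg b)) x y := by
    simp only [hψ, hm]
    congr 1 <;> ring
  rw [e3] at this
  refine this.trans ?_
  have hM : 0 ≤ M := by linarith [hG.hM]
  calc M * 8 ^ 5 * e ^ 3 / (4 * e) * ‖y - x‖ = M * 8 ^ 5 * e ^ 2 / 4 * ‖y - x‖ := by
        field_simp
    _ ≤ M * 8 ^ 5 * e ^ 2 * ‖y - x‖ := by
        have : 0 ≤ M * 8 ^ 5 * e ^ 2 := by positivity
        gcongr
        linarith

/-- second order remainder of `F₁` -/
theorem F1_taylor (hG : Gen ρ M b) {e η : ℝ} (he : 0 < e) (h8 : 8 * e ≤ ρ) (hη : 0 ≤ η)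
    (hηe : 2 * η ≤ e) {x y u w : ℂ} (h : (x, y) ∈ Om (ρ - 2 * e) (4 * e)) (hu : ‖u‖ ≤ η)
    (hw : ‖w‖ ≤ η) :
    ‖dx (Fg b) (x + u) (y + w) - dx (Fg b) x y -
      (dx (dx (Fg b)) x y * u + dx (de (Fg b)) x y * w)‖ ≤
      ‖w - u‖ ^ 2 / 2 + 3 * (M * 8 ^ 5) * e ^ 2 * η ^ 2 := by
  have hx : (x, y) ∈ Om ρ ρ := Om_mono (by linarith) (by linarith) h
  have hx' : (x + u, y + w) ∈ Om ρ ρ := Om_move h hu hw (by linarith) (by linarith)
  have hJ : JD (dx (Bg b)) (Om (ρ - e) (6 * e)) :=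
    ((JD_Bg hG).dx (isOpen_Om _ _)).mono (Om_mono (by linarith) (by linarith))
  have h1 := Om_taylor (δ := e) hJ (Bd_dxB hG he h8) hη hηe he
    (Om_mono (by linarith) (by linarith) h) hu hw
  rw [dx_Fg hG hx, dx_Fg hG hx', dxdx_Fg hG hx, dxde_Fg hG hx]
  have h2 : de (dx (Bg b)) x y = dx (de (Bg b)) x y :=
    ((JD_Bg hG).dx_de (isOpen_Om _ _) hx).symm
  rw [h2] at h1
  have e1 : -(y + w - (x + u)) ^ 2 / 2 + dx (Bg b) (x + u) (y + w) -
      (-(y - x) ^ 2 / 2 + dx (Bg b) x y) -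
      ((y - x + dx (dx (Bg b)) x y) * u + (-(y - x) + dx (de (Bg b)) x y) * w) =
      -(w - u) ^ 2 / 2 + (dx (Bg b) (x + u) (y + w) - dx (Bg b) x y -
        (dx (dx (Bg b)) x y * u + dx (de (Bg b)) x y * w)) := by ring
  rw [e1]
  refine (norm_add_le _ _).trans ?_
  have h3 : ‖-(w - u) ^ 2 / 2‖ = ‖w - u‖ ^ 2 / 2 := by
    rw [norm_div, norm_neg, norm_pow, Complex.norm_two]
  rw [h3]
  have h4 : 3 * (M * 8 ^ 5 * e ^ 4) / e ^ 2 * η ^ 2 = 3 * (M * 8 ^ 5) * e ^ 2 * η ^ 2 := by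
    field_simp
  rw [← h4]
  gcongr

/-- second order remainder of `F₂` -/
theorem F2_taylor (hG : Gen ρ M b) {e η : ℝ} (he : 0 < e) (h8 : 8 * e ≤ ρ) (hη : 0 ≤ η)
    (hηe : 2 * η ≤ e) {x y u w : ℂ} (h : (x, y) ∈ Om (ρ - 2 * e) (4 * e)) (hu : ‖u‖ ≤ η)
    (hw : ‖w‖ ≤ η) :
    ‖de (Fg b) (x + u) (y + w) - de (Fg b) x y -
      (dx (de (Fg b)) x y * u + de (de (Fg b)) x y * w)‖ ≤
      ‖w - u‖ ^ 2 / 2 + 3 * (M * 8 ^ 5) * e ^ 2 * η ^ 2 := by
  have hx : (x, y) ∈ Om ρ ρ := Om_mono (by linarith) (by linarith) h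
  have hx' : (x + u, y + w) ∈ Om ρ ρ := Om_move h hu hw (by linarith) (by linarith)
  have hJ : JD (de (Bg b)) (Om (ρ - e) (6 * e)) :=
    ((JD_Bg hG).de (isOpen_Om _ _)).mono (Om_mono (by linarith) (by linarith))
  have h1 := Om_taylor (δ := e) hJ (Bd_deB hG he h8) hη hηe he
    (Om_mono (by linarith) (by linarith) h) hu hw
  rw [de_Fg hG hx, de_Fg hG hx', dxde_Fg hG hx, dede_Fg hG hx]
  have e1 : (y + w - (x + u)) ^ 2 / 2 + de (Bg b) (x + u) (y + w) -
      ((y - x) ^ 2 / 2 + de (Bg b) x y) -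
      ((-(y - x) + dx (de (Bg b)) x y) * u + (y - x + de (de (Bg b)) x y) * w) =
      (w - u) ^ 2 / 2 + (de (Bg b) (x + u) (y + w) - de (Bg b) x y -
        (dx (de (Bg b)) x y * u + de (de (Bg b)) x y * w)) := by ring
  rw [e1]
  refine (norm_add_le _ _).trans ?_
  have h3 : ‖(w - u) ^ 2 / 2‖ = ‖w - u‖ ^ 2 / 2 := by
    rw [norm_div, norm_pow, Complex.norm_two]
  rw [h3]
  have h4 : 3 * (M * 8 ^ 5 * e ^ 4) / e ^ 2 * η ^ 2 = 3 * (M * 8 ^ 5) * e ^ 2 * η ^ 2 := by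
    field_simp
  rw [← h4]
  gcongr

end

end Vale.Agent.P097.TA.H477
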