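import Mathlib
import Vale.Agent.P097.H477.GenF
import Vale.Agent.P097.H477.Apx
import Vale.Agent.P097.H707.Mean
import Vale.Agent.P097.H707.Ident

/-! # P097 / Theorem A, package A5: parity and reality -/

set_option linter.all false

open Set Filter Metric Topology
open scoped ComplexConjugate

namespace Vale.Agent.P097.TA.H477

open Vale.Agent.P097.TA

/-- even in `ε` -/
def Ev (f : ℂ → ℂ → ℂ) (S : Set (ℂ × ℂ)) : Prop := ∀ x ε : ℂ, (x, ε) ∈ S → f x (-ε) = f x ε

/-- odd in `ε` -/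
def Od (f : ℂ → ℂ → ℂ) (S : Set (ℂ × ℂ)) : Prop := ∀ x ε : ℂ, (x, ε) ∈ S → f x (-ε) = -f x ε

/-- real -/
def Rl (f : ℂ → ℂ → ℂ) (S : Set (ℂ × ℂ)) : Prop :=
  ∀ x ε : ℂ, (x, ε) ∈ S → f (conj x) (conj ε) = conj (f x ε)

section

variable {f g : ℂ → ℂ → ℂ} {a r e : ℝ}

theorem ev_mem_x {x ε : ℂ} (h : (x, ε) ∈ WW a r e) : ∀ᶠ t in 𝓝 x, (t, ε) ∈ WW a r e := by
  have hc : ContinuousAt (fun z : ℂ => (z, ε)) x := by fun_prop
  exact hc.eventually ((isOpen_WW a r e).mem_nhds h)

theorem ev_mem_e {x ε : ℂ} (h : (x, ε) ∈ WW a r e) : ∀ᶠ t in 𝓝 ε, (x, t) ∈ WW a r e := by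
  have hc : ContinuousAt (fun z : ℂ => (x, z)) ε := by fun_prop
  exact hc.eventually ((isOpen_WW a r e).mem_nhds h)

theorem Ev.dx (h : Ev f (WW a r e)) : Ev (dx f) (WW a r e) := by
  intro x ε hx
  have h1 : (fun t => f t (-ε)) =ᶠ[𝓝 x] fun t => f t ε := by
    filter_upwards [ev_mem_x hx] with t ht using h t ε ht
  exact h1.deriv_eq

theorem Od.dx (h : Od f (WW a r e)) : Od (dx f) (WW a r e) := by
  intro x ε hx
  have h1 : (fun t => f t (-ε)) =ᶠ[𝓝 x] fun t => -f t ε := by
    filter_upwards [ev_mem_x hx] with t ht using h t ε ht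
  show deriv (fun t => f t (-ε)) x = -deriv (fun t => f t ε) x
  rw [h1.deriv_eq, deriv.fun_neg]

theorem Ev.de (h : Ev f (WW a r e)) : Od (de f) (WW a r e) := by
  intro x ε hx
  show deriv (fun t => f x t) (-ε) = -deriv (fun t => f x t) ε
  have h1 : (fun t => f x (-t)) =ᶠ[𝓝 ε] fun t => f x t := by
    filter_upwards [ev_mem_e hx] with t ht using h x t ht
  have h2 := h1.deriv_eq
  rw [deriv_comp_neg (fun t => f x t) ε] at h2
  rw [← h2, neg_neg]

theorem Od.de (h : Od f (WW a r e)) : Ev (de f) (WW a r e) := by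
  intro x ε hx
  show deriv (fun t => f x t) (-ε) = deriv (fun t => f x t) ε
  have h1 : (fun t => f x (-t)) =ᶠ[𝓝 ε] fun t => -f x t := by
    filter_upwards [ev_mem_e hx] with t ht using h x t ht
  have h2 := h1.deriv_eq
  rw [deriv_comp_neg (fun t => f x t) ε, deriv.fun_neg] at h2
  exact neg_injective h2

theorem Rl.dx (h : Rl f (WW a r e)) : Rl (dx f) (WW a r e) := by
  intro x ε hx
  have hx' := WW_conj hx
  have h1 : (fun t => f t (conj ε)) =ᶠ[𝓝 (conj x)] (conj ∘ (fun t => f t ε) ∘ conj) := by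
    filter_upwards [ev_mem_x hx'] with t ht
    have := h _ _ (WW_conj ht)
    simp only [Complex.conj_conj] at this ⊢
    simp only [Function.comp]
    rw [← this]
  show deriv (fun t => f t (conj ε)) (conj x) = conj (deriv (fun t => f t ε) x)
  rw [h1.deriv_eq]
  have h2 := congrFun (deriv_conj_conj (𝕜 := ℂ) (f := fun t => f t ε)) (conj x)
  simpa [Function.comp] using h2

theorem Rl.de (h : Rl f (WW a r e)) : Rl (de f) (WW a r e) := by
  intro x ε hx
  have hx' := WW_conj hx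
  have h1 : (fun t => f (conj x) t) =ᶠ[𝓝 (conj ε)] (conj ∘ (fun t => f x t) ∘ conj) := by
    filter_upwards [ev_mem_e hx'] with t ht
    have := h _ _ (WW_conj ht)
    simp only [Complex.conj_conj] at this ⊢
    simp only [Function.comp]
    rw [← this]
  show deriv (fun t => f (conj x) t) (conj ε) = conj (deriv (fun t => f x t) ε)
  rw [h1.deriv_eq]
  have h2 := congrFun (deriv_conj_conj (𝕜 := ℂ) (f := fun t => f x t)) (conj ε)
  simpa [Function.comp] using h2

theorem Ev.mn (h : Ev f (WW a r e)) : Ev (fun _ ε => mn f ε) (WW a r e) :=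
  fun x ε hx => mn_congr' fun t => h t ε (WW_ofReal hx t)
where
  mn_congr' {f : ℂ → ℂ → ℂ} {ε ε' : ℂ} (h : ∀ t : ℝ, f t ε' = f t ε) :
      TA.mn f ε' = TA.mn f ε := by simp only [TA.mn, h]

theorem Od.mn (h : Od f (WW a r e)) : Od (fun _ ε => mn f ε) (WW a r e) := by
  intro x ε hx
  have h1 : ∀ t : ℝ, f t (-ε) = -f t ε := fun t => h t ε (WW_ofReal hx t)
  simp only [TA.mn, h1, intervalIntegral.integral_neg]

theorem Rl.mn (h : Rl f (WW a r e)) : Rl (fun _ ε => mn f ε) (WW a r e) := by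
  intro x ε hx
  have h1 : ∀ t : ℝ, f t (conj ε) = conj (f t ε) := fun t => by
    have := h t ε (WW_ofReal hx t)
    rwa [Complex.conj_ofReal] at this
  simp only [TA.mn, h1]
  exact intervalIntegral.intervalIntegral_conj

theorem Rl.half {f : ℂ → ℂ → ℂ} (h : Rl f (WW a r e)) {x ε : ℂ} (hx : (x, ε) ∈ WW (a + 1 / 2) r e) :
    f (conj x + conj ε / 2) (conj ε) = conj (f (x + ε / 2) ε) ∧
    f (conj x - conj ε / 2) (conj ε) = conj (f (x - ε / 2) ε) := by
  have h1 := h _ _ (half_mem hx).1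
  have h2 := h _ _ (half_mem hx).2
  simp only [map_add, map_sub, map_div₀, Complex.conj_ofNat] at h1 h2
  exact ⟨h1, h2⟩

end

section gen

variable {ρ M : ℝ} {b : ℂ → ℂ → ℂ}

/-- the mixed derivative of the generating function is antisymmetric -/
theorem dxde_anti (hG : Gen ρ M b) {x y : ℂ} (h : (x, y) ∈ Om ρ ρ) :
    dx (de (Fg b)) y x = -dx (de (Fg b)) x y := by
  have h1 : (fun s => de (Fg b) s x) =ᶠ[𝓝 y] fun s => -dx (Fg b) x s := by
    filter_upwards [ev_e h] with s hs
    have h2 : (fun t => Fg b s t) =ᶠ[𝓝 x] fun t => -Fg b t s := by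
      filter_upwards [ev_x hs] with t ht using Fg_anti hG ht
    show deriv (fun t => Fg b s t) x = -deriv (fun t => Fg b t s) x
    rw [h2.deriv_eq, deriv.fun_neg]
  show deriv (fun s => de (Fg b) s x) y = _
  rw [h1.deriv_eq, deriv.fun_neg]
  show -de (dx (Fg b)) x y = _
  rw [(JD_Fg hG).dx_de (isOpen_Om _ _) h]

theorem Fg_real (hG : Gen ρ M b) {x y : ℂ} (h : (x, y) ∈ Om ρ ρ) :
    Fg b (conj x) (conj y) = conj (Fg b x y) := by
  rw [mem_Om] at h
  have h1 := hG.real _ _ h.1 h.2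
  unfold Fg
  have e1 : (conj x + conj y) / 2 = conj ((x + y) / 2) := by
    simp only [map_add, map_div₀, Complex.conj_ofNat]
  have e2 : conj y - conj x = conj (y - x) := by simp
  rw [e1, e2, h1]
  simp only [map_add, map_mul, map_div₀, map_pow, map_sub, Complex.conj_ofNat]

theorem Om_conj {s t : ℝ} {x y : ℂ} (h : (x, y) ∈ Om s t) : (conj x, conj y) ∈ Om s t := by
  rw [mem_Om] at h ⊢
  have e1 : (conj x + conj y) / 2 = conj ((x + y) / 2) := by
    simp only [map_add, map_div₀, Complex.conj_ofNat]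
  have e2 : conj y - conj x = conj (y - x) := by simp
  rw [e1, e2]
  exact ⟨by rw [Complex.conj_im, abs_neg]; exact h.1, by rw [Complex.norm_conj]; exact h.2⟩

/-- reality of the derivatives: first variable -/
theorem real_dx {N : ℂ → ℂ → ℂ} {s t : ℝ}
    (hN : ∀ x y : ℂ, (x, y) ∈ Om s t → N (conj x) (conj y) = conj (N x y)) {x y : ℂ}
    (h : (x, y) ∈ Om s t) : dx N (conj x) (conj y) = conj (dx N x y) := by
  have h1 : (fun t => N t (conj y)) =ᶠ[𝓝 (conj x)] (conj ∘ (fun t => N t y) ∘ conj) := by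
    filter_upwards [ev_x (Om_conj h)] with t ht
    have := hN _ _ (Om_conj ht)
    simp only [Complex.conj_conj] at this ⊢
    simp only [Function.comp]
    rw [← this]
  show deriv (fun t => N t (conj y)) (conj x) = conj (deriv (fun t => N t y) x)
  rw [h1.deriv_eq]
  have h2 := congrFun (deriv_conj_conj (𝕜 := ℂ) (f := fun t => N t y)) (conj x)
  simpa [Function.comp] using h2

theorem real_de {N : ℂ → ℂ → ℂ} {s t : ℝ}
    (hN : ∀ x y : ℂ, (x, y) ∈ Om s t → N (conj x) (conj y) = conj (N x y)) {x y : ℂ}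
    (h : (x, y) ∈ Om s t) : de N (conj x) (conj y) = conj (de N x y) := by
  have h1 : (fun t => N (conj x) t) =ᶠ[𝓝 (conj y)] (conj ∘ (fun t => N x t) ∘ conj) := by
    filter_upwards [ev_e (Om_conj h)] with t ht
    have := hN _ _ (Om_conj ht)
    simp only [Complex.conj_conj] at this ⊢
    simp only [Function.comp]
    rw [← this]
  show deriv (fun t => N (conj x) t) (conj y) = conj (deriv (fun t => N x t) y)
  rw [h1.deriv_eq]
  have h2 := congrFun (deriv_conj_conj (𝕜 := ℂ) (f := fun t => N x t)) (conj y)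
  simpa [Function.comp] using h2

end gen

end Vale.Agent.P097.TA.H477
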