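import Mathlib
import Vale.Agent.P097.H477.Sym
import Vale.Agent.P097.H900.L1

/-! # P097 / Theorem A, package A5: the setting of one Newton step -/

set_option linter.all false

open Set Filter Metric Topology
open scoped ComplexConjugate

namespace Vale.Agent.P097.TA.H477

open Vale.Agent.P097.TA

section gen

variable {ρ M : ℝ} {b : ℂ → ℂ → ℂ}

theorem Om_one {s t : ℝ} {x y : ℂ} (h : (x, y) ∈ Om s t) : (x + 1, y + 1) ∈ Om s t := by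
  rw [mem_Om] at h ⊢
  have e1 : (x + 1 + (y + 1)) / 2 = (x + y) / 2 + 1 := by ring
  have e2 : y + 1 - (x + 1) = y - x := by ring
  rw [e1, e2]
  exact ⟨by simpa using h.1, h.2⟩

theorem Fg_per (hG : Gen ρ M b) {x y : ℂ} (h : (x, y) ∈ Om ρ ρ) :
    Fg b (x + 1) (y + 1) = Fg b x y := by
  rw [mem_Om] at h
  have h1 := hG.per _ _ h.1 h.2
  unfold Fg
  have e1 : (x + 1 + (y + 1)) / 2 = (x + y) / 2 + 1 := by ring
  have e2 : y + 1 - (x + 1) = y - x := by ring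
  rw [e1, e2, h1]

theorem per_dx {N : ℂ → ℂ → ℂ} {s t : ℝ}
    (hN : ∀ x y : ℂ, (x, y) ∈ Om s t → N (x + 1) (y + 1) = N x y) {x y : ℂ}
    (h : (x, y) ∈ Om s t) : dx N (x + 1) (y + 1) = dx N x y := by
  have h1 : (fun t => N (t + 1) (y + 1)) =ᶠ[𝓝 x] fun t => N t y := by
    filter_upwards [ev_x h] with t ht using hN t y ht
  have h2 := h1.deriv_eq
  rw [deriv_comp_add_const (fun t => N t (y + 1)) 1 x] at h2
  exact h2

theorem per_de {N : ℂ → ℂ → ℂ} {s t : ℝ}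
    (hN : ∀ x y : ℂ, (x, y) ∈ Om s t → N (x + 1) (y + 1) = N x y) {x y : ℂ}
    (h : (x, y) ∈ Om s t) : de N (x + 1) (y + 1) = de N x y := by
  have h1 : (fun t => N (x + 1) (t + 1)) =ᶠ[𝓝 y] fun t => N x t := by
    filter_upwards [ev_e h] with t ht using hN x t ht
  have h2 := h1.deriv_eq
  rw [deriv_comp_add_const (fun t => N (x + 1) t) 1 y] at h2
  exact h2

end gen

/-- the setting of one Newton step -/
structure Ctx (ρ M : ℝ) (b θ S : ℂ → ℂ → ℂ) (r e dl E ν : ℝ) : Prop where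
  G : Gen ρ M b
  A : Apx b θ r e dl E
  hr0 : 0 < r
  hr : r ≤ ρ / 2
  he0 : 0 < e
  her : e ≤ r
  h16 : 16 * e ≤ ρ
  hMe : M * 8 ^ 5 * e ^ 2 ≤ 1 / 50
  hdl : dl ≤ 1 / 50
  hdlρ : dl ≤ ρ / 4
  hE : 0 ≤ E
  hν : 0 ≤ ν
  hS : JD S (WW 0 r e)
  hSp : Per S (WW 0 r e)
  hSe : Ev S (WW 0 r e)
  hSr : Rl S (WW 0 r e)
  hf : Bd (f1 (Fg b) θ S) ν (WW (1 / 2) r e)

namespace Ctx

variable {ρ M r e dl E ν : ℝ} {b θ S : ℂ → ℂ → ℂ}

theorem hρ (h : Ctx ρ M b θ S r e dl E ν) : 0 < ρ := h.G.hρ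

theorem he1 (h : Ctx ρ M b θ S r e dl E ν) : e ≤ 1 / 16 := by
  have := h.G.hρ1; have := h.h16; linarith

theorem dl0 (h : Ctx ρ M b θ S r e dl E ν) : 0 ≤ dl := by
  have h0 : ((0 : ℂ), (0 : ℂ)) ∈ WW 0 r e := by
    rw [mem_WW]; simpa using ⟨h.he0, h.hr0⟩
  exact (norm_nonneg _).trans (h.A.cl 0 0 h0)

theorem hW0 {x ε : ℂ} (hx : (x, ε) ∈ WW (1 / 2) r e) : (x, ε) ∈ WW 0 r e :=
  WW_mono (by norm_num) le_rfl le_rfl hx

theorem hp {x ε : ℂ} (hx : (x, ε) ∈ WW (1 / 2) r e) : (x + ε / 2, ε) ∈ WW 0 r e :=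
  (half_mem (a := 0) (by simpa using hx)).1

theorem hm {x ε : ℂ} (hx : (x, ε) ∈ WW (1 / 2) r e) : (x - ε / 2, ε) ∈ WW 0 r e :=
  (half_mem (a := 0) (by simpa using hx)).2

/-- `θ` is Lipschitz close to the identity on horizontal segments of the strip -/
theorem lip (h : Ctx ρ M b θ S r e dl E ν) {x y ε : ℂ} (hx : (x, ε) ∈ WW 0 r e)
    (hy : (y, ε) ∈ WW 0 r e) : ‖θ y ε - θ x ε - (y - x)‖ ≤ dl * ‖y - x‖ := by
  have hconv : Convex ℝ {t : ℂ | (t, ε) ∈ WW 0 r e} := by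
    intro p hp q hq s t hs ht hst
    have := convex_WW (le_refl (0 : ℝ)) (x := (p, ε)) hp (y := (q, ε)) hq hs ht hst
    have e1 : s • (p, ε) + t • (q, ε) = ((s • p + t • q, ε) : ℂ × ℂ) := by
      ext
      · rfl
      · show s • ε + t • ε = ε
        rw [← add_smul, hst, one_smul]
    rw [e1] at this
    exact this
  have key := Convex.norm_image_sub_le_of_norm_hasDerivWithin_le (𝕜 := ℂ) (C := dl)
    (f := fun t => θ t ε - t) (f' := fun t => dx θ t ε - 1) (s := {t : ℂ | (t, ε) ∈ WW 0 r e})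
    (x := x) (y := y)
    (fun t ht => ((h.A.hol.hasDerivAt_x (isOpen_WW _ _ _) ht).sub (hasDerivAt_id t)).hasDerivWithinAt)
    (fun t ht => h.A.dx1 t ε ht) hconv hx hy
  have e2 : θ y ε - y - (θ x ε - x) = θ y ε - θ x ε - (y - x) := by ring
  rw [e2] at key
  exact key

theorem gap (h : Ctx ρ M b θ S r e dl E ν) {x ε : ℂ} (hx : (x, ε) ∈ WW (1 / 2) r e) :
    ‖θ (x + ε / 2) ε - θ (x - ε / 2) ε - ε‖ ≤ dl * ‖ε‖ := by
  have := h.lip (hm hx) (hp hx)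
  have e1 : x + ε / 2 - (x - ε / 2) = ε := by ring
  rwa [e1] at this

theorem adm (h : Ctx ρ M b θ S r e dl E ν) {x ε : ℂ} (hx : (x, ε) ∈ WW (1 / 2) r e) :
    (θ (x - ε / 2) ε, θ (x + ε / 2) ε) ∈ Om (ρ - 2 * e) (2 * e) := by
  rw [mem_Om]
  have h1 := h.A.cl _ _ (hp hx)
  have h2 := h.A.cl _ _ (hm hx)
  have h3 := h.gap hx
  have hdl := h.hdl
  have hdlρ := h.hdlρ
  have h16 := h.h16
  have hr := h.hr
  have hxr : |x.im| < r := by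
    have := (mem_WW.1 hx).2
    have : 0 ≤ |ε.im| := abs_nonneg _
    linarith
  have hεe : ‖ε‖ < e := hx.1
  constructor
  · have e1 : (θ (x - ε / 2) ε + θ (x + ε / 2) ε) / 2 = x +
        ((θ (x + ε / 2) ε - (x + ε / 2)) + (θ (x - ε / 2) ε - (x - ε / 2))) / 2 := by ring
    rw [e1, Complex.add_im]
    have h4 : ‖((θ (x + ε / 2) ε - (x + ε / 2)) + (θ (x - ε / 2) ε - (x - ε / 2))) / 2‖ ≤ dl := by
      rw [norm_div, Complex.norm_two]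
      have := norm_add_le (θ (x + ε / 2) ε - (x + ε / 2)) (θ (x - ε / 2) ε - (x - ε / 2))
      linarith
    have h5 := (Complex.abs_im_le_norm _).trans h4
    have h6 := abs_add_le x.im
      (((θ (x + ε / 2) ε - (x + ε / 2)) + (θ (x - ε / 2) ε - (x - ε / 2))) / 2).im
    have hρ0 := h.hρ
    linarith
  · have e2 : θ (x + ε / 2) ε - θ (x - ε / 2) ε = (θ (x + ε / 2) ε - θ (x - ε / 2) ε - ε) + ε := by
      ring
    rw [e2]
    refine (norm_add_le _ _).trans_lt ?_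
    have : dl * ‖ε‖ ≤ 1 / 50 * ‖ε‖ := by gcongr
    have := h.he0
    linarith

theorem adm' (h : Ctx ρ M b θ S r e dl E ν) {x ε : ℂ} (hx : (x, ε) ∈ WW (1 / 2) r e) :
    (θ (x - ε / 2) ε, θ (x + ε / 2) ε) ∈ Om ρ ρ := by
  have := h.he0
  have := h.h16
  exact Om_mono (by linarith) (by linarith) (h.adm hx)

theorem v_ne (h : Ctx ρ M b θ S r e dl E ν) {x ε : ℂ} (hx : (x, ε) ∈ WW 0 r e) :
    dx θ x ε ≠ 0 := by
  intro h0
  have h1 := h.A.dx1 x ε hx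
  rw [h0, zero_sub, norm_neg, norm_one] at h1
  linarith [h.hdl]

theorem v_le (h : Ctx ρ M b θ S r e dl E ν) {x ε : ℂ} (hx : (x, ε) ∈ WW 0 r e) :
    ‖dx θ x ε‖ ≤ 51 / 50 ∧ 49 / 50 ≤ ‖dx θ x ε‖ := by
  have h1 := h.A.dx1 x ε hx
  have hdl := h.hdl
  constructor
  · have := norm_add_le (dx θ x ε - 1) 1
    rw [sub_add_cancel, norm_one] at this
    linarith
  · have := norm_sub_norm_le (1 : ℂ) (1 - dx θ x ε)
    rw [norm_one, norm_sub_rev, sub_sub_cancel] at this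
    linarith

theorem aa_le (h : Ctx ρ M b θ S r e dl E ν) : Bd (aa θ) (1 / 49) (WW 0 r e) := by
  intro x ε hx
  unfold aa
  rw [norm_div, div_le_iff₀ (by have := (h.v_le hx).2; linarith)]
  have h1 := h.A.de0 x ε hx
  have h2 := (h.v_le hx).2
  have := h.hdl
  linarith

/-! ### holomorphy -/

theorem J_θ (h : Ctx ρ M b θ S r e dl E ν) : JD θ (WW 0 r e) := h.A.hol

theorem J_v (h : Ctx ρ M b θ S r e dl E ν) : JD (dx θ) (WW 0 r e) := h.A.hol.dx (isOpen_WW _ _ _)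

theorem J_w (h : Ctx ρ M b θ S r e dl E ν) : JD (de θ) (WW 0 r e) := h.A.hol.de (isOpen_WW _ _ _)

theorem J_aa (h : Ctx ρ M b θ S r e dl E ν) : JD (aa θ) (WW 0 r e) :=
  h.J_w.div h.J_v fun _ _ hx => h.v_ne hx

theorem toH {f : ℂ → ℂ → ℂ} {a r e : ℝ} (hf : JD f (WW (a + 1 / 2) r e)) (ha : a = 0) :
    JD f (WW (1 / 2) r e) := by subst ha; simpa using hf

theorem J_hp {f : ℂ → ℂ → ℂ} (hf : JD f (WW 0 r e)) :
    JD (fun x ε => f (x + ε / 2) ε) (WW (1 / 2) r e) := toH hf.add_half rfl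

theorem J_hm {f : ℂ → ℂ → ℂ} (hf : JD f (WW 0 r e)) :
    JD (fun x ε => f (x - ε / 2) ε) (WW (1 / 2) r e) := toH hf.sub_half rfl

theorem J_Dl {f : ℂ → ℂ → ℂ} (hf : JD f (WW 0 r e)) : JD (Dl f) (WW (1 / 2) r e) :=
  toH hf.Dl rfl

theorem J_Av {f : ℂ → ℂ → ℂ} (hf : JD f (WW 0 r e)) : JD (Av f) (WW (1 / 2) r e) :=
  toH hf.Av rfl

theorem J_N (h : Ctx ρ M b θ S r e dl E ν) {N : ℂ → ℂ → ℂ} (hN : JD N (Om ρ ρ)) :
    JD (fun x ε => N (θ (x - ε / 2) ε) (θ (x + ε / 2) ε)) (WW (1 / 2) r e) :=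
  JD.comp hN (J_hm h.J_θ) (J_hp h.J_θ) fun _ _ hx => h.adm' hx

theorem J_fF (h : Ctx ρ M b θ S r e dl E ν) : JD (fF (Fg b) θ) (WW (1 / 2) r e) :=
  h.J_N (JD_Fg h.G)

theorem J_PP (h : Ctx ρ M b θ S r e dl E ν) : JD (PP (Fg b) θ) (WW (1 / 2) r e) :=
  (h.J_N ((JD_Fg h.G).dx (isOpen_Om _ _))).mul (J_hm h.J_v)

theorem J_QQ (h : Ctx ρ M b θ S r e dl E ν) : JD (QQ (Fg b) θ) (WW (1 / 2) r e) :=
  (h.J_N ((JD_Fg h.G).de (isOpen_Om _ _))).mul (J_hp h.J_v)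

theorem J_cF (h : Ctx ρ M b θ S r e dl E ν) : JD (cF (Fg b) θ) (WW (1 / 2) r e) :=
  ((h.J_N (((JD_Fg h.G).de (isOpen_Om _ _)).dx (isOpen_Om _ _))).neg.mul
    (J_hm h.J_v)).mul (J_hp h.J_v)

theorem J_JJ (h : Ctx ρ M b θ S r e dl E ν) : JD (JJ (Fg b) θ) (WW (1 / 2) r e) :=
  h.J_cF.mul ((JD.const 1).add (J_Dl h.J_aa))

theorem J_mnf (h : Ctx ρ M b θ S r e dl E ν) : JD (fun _ ε => mn (fF (Fg b) θ) ε) (WW (1 / 2) r e) :=
  h.J_fF.mn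

theorem J_f1 (h : Ctx ρ M b θ S r e dl E ν) : JD (f1 (Fg b) θ S) (WW (1 / 2) r e) :=
  (h.J_fF.sub h.J_mnf).sub (J_Dl h.hS)

theorem BBeq (h : Ctx ρ M b θ S r e dl E ν) {ε : ℂ} (hε : ‖ε‖ < e) {a : ℝ} (ha : a ≤ 1) (ha0 : 0 ≤ a) :
    ε ∈ BB a r e := by
  show ((0 : ℂ), ε) ∈ WW a r e
  rw [mem_WW]
  refine ⟨hε, ?_⟩
  have h1 := Complex.abs_im_le_norm ε
  have h2 := h.her
  have h3 : a * |ε.im| ≤ 1 * |ε.im| := mul_le_mul_of_nonneg_right ha (abs_nonneg _)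
  simp only [Complex.zero_im, abs_zero]
  linarith

/-- the derivative of the mean, as a jointly holomorphic function on `WW 0` -/
theorem J_mnf' (h : Ctx ρ M b θ S r e dl E ν) :
    JD (fun _ ε => deriv (mn (fF (Fg b) θ)) ε) (WW 0 r e) := by
  have h1 : DifferentiableOn ℂ (mn (fF (Fg b) θ)) (BB (1 / 2) r e) := differentiableOn_mn h.J_fF
  have h2 : DifferentiableOn ℂ (deriv (mn (fF (Fg b) θ))) (BB (1 / 2) r e) :=
    h1.deriv (isOpen_BB _ _ _)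
  exact JD.comp_snd h2 fun x ε hx => h.BBeq hx.1 (by norm_num) (by norm_num)

theorem mn_dat (h : Ctx ρ M b θ S r e dl E ν) {ε : ℂ} (hε : ‖ε‖ < e) :
    DifferentiableAt ℂ (mn (fF (Fg b) θ)) ε :=
  (differentiableOn_mn h.J_fF).differentiableAt
    ((isOpen_BB _ _ _).mem_nhds (h.BBeq hε (by norm_num) (by norm_num)))

theorem J_GG (h : Ctx ρ M b θ S r e dl E ν) : JD (GG (Fg b) θ S) (WW (1 / 2) r e) :=
  ((J_Av (h.hS.dx (isOpen_WW _ _ _))).add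
    ((h.J_PP.sub h.J_QQ).div (JD.const 2) fun _ _ _ => two_ne_zero)).add
    (h.J_mnf'.mono (WW_mono (by norm_num) le_rfl le_rfl))

theorem J_VV (h : Ctx ρ M b θ S r e dl E ν) : JD (VV (Fg b) θ S) (WW 0 r e) :=
  (h.hS.de (isOpen_WW _ _ _)).sub
    (h.J_aa.mul ((h.hS.dx (isOpen_WW _ _ _)).add h.J_mnf'))

/-! ### periodicity -/

theorem P_v (h : Ctx ρ M b θ S r e dl E ν) : Per (dx θ) (WW 0 r e) := by
  intro x ε hx
  have h1 : (fun t => θ (t + 1) ε) =ᶠ[𝓝 x] fun t => θ t ε + 1 := by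
    filter_upwards [ev_mem_x hx] with t ht using h.A.per t ε ht
  have h2 := h1.deriv_eq
  rw [deriv_comp_add_const (fun t => θ t ε) 1 x, deriv_add_const] at h2
  exact h2

theorem P_w (h : Ctx ρ M b θ S r e dl E ν) : Per (de θ) (WW 0 r e) := by
  intro x ε hx
  have h1 : (fun t => θ (x + 1) t) =ᶠ[𝓝 ε] fun t => θ x t + 1 := by
    filter_upwards [ev_mem_e hx] with t ht using h.A.per x t ht
  have h2 := h1.deriv_eq
  rw [deriv_add_const] at h2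
  exact h2

theorem P_aa (h : Ctx ρ M b θ S r e dl E ν) : Per (aa θ) (WW 0 r e) := by
  intro x ε hx
  unfold aa
  rw [h.P_v x ε hx, h.P_w x ε hx]

theorem P_hp {f : ℂ → ℂ → ℂ} (hf : Per f (WW 0 r e)) {x ε : ℂ} (hx : (x, ε) ∈ WW (1 / 2) r e) :
    f (x + 1 + ε / 2) ε = f (x + ε / 2) ε ∧ f (x + 1 - ε / 2) ε = f (x - ε / 2) ε := by
  have h1 := hf _ _ (hp hx)
  have h2 := hf _ _ (hm hx)
  constructor
  · rw [← h1]; congr 1; ring
  · rw [← h2]; congr 1; ring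

theorem P_Dl {f : ℂ → ℂ → ℂ} (hf : Per f (WW 0 r e)) : Per (Dl f) (WW (1 / 2) r e) := by
  intro x ε hx
  unfold Dl
  rw [(P_hp hf hx).1, (P_hp hf hx).2]

theorem P_Av {f : ℂ → ℂ → ℂ} (hf : Per f (WW 0 r e)) : Per (Av f) (WW (1 / 2) r e) := by
  intro x ε hx
  unfold Av
  rw [(P_hp hf hx).1, (P_hp hf hx).2]

theorem P_N (h : Ctx ρ M b θ S r e dl E ν) {N : ℂ → ℂ → ℂ}
    (hN : ∀ x y : ℂ, (x, y) ∈ Om ρ ρ → N (x + 1) (y + 1) = N x y) :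
    Per (fun x ε => N (θ (x - ε / 2) ε) (θ (x + ε / 2) ε)) (WW (1 / 2) r e) := by
  intro x ε hx
  have e1 : x + 1 - ε / 2 = x - ε / 2 + 1 := by ring
  have e2 : x + 1 + ε / 2 = x + ε / 2 + 1 := by ring
  show N (θ (x + 1 - ε / 2) ε) (θ (x + 1 + ε / 2) ε) = N (θ (x - ε / 2) ε) (θ (x + ε / 2) ε)
  rw [e1, e2, h.A.per _ _ (hp hx), h.A.per _ _ (hm hx), hN _ _ (h.adm' hx)]

theorem P_fF (h : Ctx ρ M b θ S r e dl E ν) : Per (fF (Fg b) θ) (WW (1 / 2) r e) :=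
  h.P_N fun _ _ hxy => Fg_per h.G hxy

theorem P_PP (h : Ctx ρ M b θ S r e dl E ν) : Per (PP (Fg b) θ) (WW (1 / 2) r e) := by
  intro x ε hx
  have h1 := h.P_N (N := dx (Fg b)) (fun _ _ hxy => per_dx (fun _ _ hz => Fg_per h.G hz) hxy) x ε hx
  have h2 := (P_hp h.P_v hx).2
  unfold PP
  rw [h2]
  exact congrArg (· * _) h1

theorem P_QQ (h : Ctx ρ M b θ S r e dl E ν) : Per (QQ (Fg b) θ) (WW (1 / 2) r e) := by
  intro x ε hx
  have h1 := h.P_N (N := de (Fg b)) (fun _ _ hxy => per_de (fun _ _ hz => Fg_per h.G hz) hxy) x ε hx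
  have h2 := (P_hp h.P_v hx).1
  unfold QQ
  rw [h2]
  exact congrArg (· * _) h1

theorem P_cF (h : Ctx ρ M b θ S r e dl E ν) : Per (cF (Fg b) θ) (WW (1 / 2) r e) := by
  intro x ε hx
  have h1 := h.P_N (N := dx (de (Fg b))) (fun _ _ hxy => per_dx (fun _ _ hz =>
    per_de (fun _ _ hw => Fg_per h.G hw) hz) hxy) x ε hx
  have h2 := P_hp h.P_v hx
  unfold cF
  rw [h2.1, h2.2]
  simp only at h1
  rw [h1]

theorem P_JJ (h : Ctx ρ M b θ S r e dl E ν) : Per (JJ (Fg b) θ) (WW (1 / 2) r e) := by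
  intro x ε hx
  unfold JJ
  rw [h.P_cF x ε hx, P_Dl h.P_aa x ε hx]

theorem P_GG (h : Ctx ρ M b θ S r e dl E ν) : Per (GG (Fg b) θ S) (WW (1 / 2) r e) := by
  intro x ε hx
  unfold GG
  rw [P_Av (h.hSp.dx (isOpen_WW _ _ _)) x ε hx, h.P_PP x ε hx, h.P_QQ x ε hx]

theorem P_VV (h : Ctx ρ M b θ S r e dl E ν) : Per (VV (Fg b) θ S) (WW 0 r e) := by
  intro x ε hx
  unfold VV
  rw [h.hSp.de (isOpen_WW _ _ _) x ε hx, h.hSp.dx (isOpen_WW _ _ _) x ε hx, h.P_aa x ε hx]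

/-! ### size of `J` -/

theorem mulnear {w z ε : ℂ} {α β : ℝ} (h1 : ‖w - ε‖ ≤ α * ‖ε‖) (h2 : ‖z - 1‖ ≤ β) (hβ : 0 ≤ β) :
    ‖w * z - ε‖ ≤ (α * (1 + β) + β) * ‖ε‖ := by
  have e1 : w * z - ε = (w - ε) * z + ε * (z - 1) := by ring
  rw [e1]
  have h3 : ‖z‖ ≤ 1 + β := by
    have := norm_add_le (z - 1) 1
    rw [sub_add_cancel, norm_one] at this
    linarith
  have h0 : 0 ≤ α * ‖ε‖ := (norm_nonneg _).trans h1
  calc ‖(w - ε) * z + ε * (z - 1)‖ ≤ ‖w - ε‖ * ‖z‖ + ‖ε‖ * ‖z - 1‖ := by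
        refine (norm_add_le _ _).trans ?_
        rw [norm_mul, norm_mul]
    _ ≤ (α * ‖ε‖) * (1 + β) + ‖ε‖ * β := by gcongr
    _ = (α * (1 + β) + β) * ‖ε‖ := by ring

theorem cF_near (h : Ctx ρ M b θ S r e dl E ν) {x ε : ℂ} (hx : (x, ε) ∈ WW (1 / 2) r e) :
    ‖cF (Fg b) θ x ε - ε‖ ≤ 9 / 100 * ‖ε‖ := by
  have he := h.he0
  have h16 := h.h16
  have hdl := h.hdl
  have h1 := F12_near h.G he (by linarith) (Om_mono le_rfl (by linarith) (h.adm hx))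
  have h2 := h.gap hx
  set d := θ (x + ε / 2) ε - θ (x - ε / 2) ε with hd
  set w := dx (de (Fg b)) (θ (x - ε / 2) ε) (θ (x + ε / 2) ε) with hw
  have h3 : ‖d‖ ≤ 51 / 50 * ‖ε‖ := by
    have := norm_add_le (d - ε) ε
    rw [sub_add_cancel] at this
    have : dl * ‖ε‖ ≤ 1 / 50 * ‖ε‖ := by gcongr
    linarith
  have h4 : ‖-w - ε‖ ≤ 41 / 1000 * ‖ε‖ := by
    have e1 : -w - ε = -(w + d) + (d - ε) := by ring
    rw [e1]
    refine (norm_add_le _ _).trans ?_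
    rw [norm_neg]
    have h5 : M * 8 ^ 5 * e ^ 2 * ‖d‖ ≤ 1 / 50 * (51 / 50 * ‖ε‖) := by
      have := h.hMe
      have h6 : 0 ≤ M * 8 ^ 5 * e ^ 2 := by
        have := h.G.hM; positivity
      exact mul_le_mul this h3 (norm_nonneg _) (by norm_num)
    have h6 : dl * ‖ε‖ ≤ 1 / 50 * ‖ε‖ := by gcongr
    have := norm_nonneg ε
    linarith
  have h5 := (h.A.dx1 _ _ (hm hx)).trans hdl
  have h6 := (h.A.dx1 _ _ (hp hx)).trans hdl
  have h7 := mulnear (mulnear h4 h5 (by norm_num)) h6 (by norm_num)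
  unfold cF
  refine h7.trans ?_
  have := norm_nonneg ε
  nlinarith

theorem JJ_near (h : Ctx ρ M b θ S r e dl E ν) {x ε : ℂ} (hx : (x, ε) ∈ WW (1 / 2) r e) :
    ‖JJ (Fg b) θ x ε - ε‖ ≤ 1 / 4 * ‖ε‖ := by
  have h1 := h.cF_near hx
  have h2 : ‖(1 + Dl (aa θ) x ε) - 1‖ ≤ 2 / 49 := by
    rw [add_sub_cancel_left]
    have := h.aa_le.Dl x ε (by simpa using hx)
    linarith
  have h3 := mulnear h1 h2 (by norm_num)
  unfold JJ
  refine h3.trans ?_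
  have := norm_nonneg ε
  nlinarith

theorem mnJ_near (h : Ctx ρ M b θ S r e dl E ν) {ε : ℂ} (hε : ‖ε‖ < e) :
    ‖mn (JJ (Fg b) θ) ε - ε‖ ≤ 1 / 4 * ‖ε‖ := by
  have hB := h.BBeq hε (a := 1 / 2) (by norm_num) (by norm_num)
  have h1 : mn (fun x ε => JJ (Fg b) θ x ε - ε) ε = mn (JJ (Fg b) θ) ε - ε := by
    rw [mn_sub h.J_JJ JD.snd hB, mn_snd (fun ε => ε)]
  rw [← h1]
  have := intervalIntegral.norm_integral_le_of_norm_le_const (a := (0 : ℝ)) (b := 1)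
    (C := 1 / 4 * ‖ε‖) (f := fun t : ℝ => JJ (Fg b) θ t ε - ε) fun t _ => h.JJ_near (BB_real hB t)
  simpa [mn] using this

end Ctx

end Vale.Agent.P097.TA.H477
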