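import Mathlib
import Vale.Agent.P097.H477.Ctx

/-! # P097 / Theorem A, package A5: the bounds of one Newton step -/

set_option linter.all false

open Set Filter Metric Topology
open scoped ComplexConjugate

namespace Vale.Agent.P097.TA.H477

open Vale.Agent.P097.TA

/-- the losses of one step -/
structure Loss (r e σ τ κ : ℝ) : Prop where
  hσ : 0 < σ
  hτ : 0 < τ
  hσr : 6 * σ < r
  hτe : 6 * τ < e
  her : e ≤ r - 6 * σ
  hκ : κ = e / (σ * τ)

namespace Loss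

variable {r e σ τ κ : ℝ}

theorem e_pos (l : Loss r e σ τ κ) : 0 < e := by linarith [l.hτ, l.hτe]

theorem e_eq (l : Loss r e σ τ κ) : σ * τ = e / κ := by
  have := l.hσ
  have := l.hτ
  have := l.e_pos
  rw [l.hκ]; field_simp

theorem κ_pos (l : Loss r e σ τ κ) : 0 < κ := by
  have := l.hσ
  have := l.hτ
  have := l.e_pos
  rw [l.hκ]; positivity

/-- `1 / σ ≤ κ` -/
theorem inv_σ (l : Loss r e σ τ κ) : 1 / σ ≤ κ := by
  have := l.hσ
  have := l.hτ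
  have := l.hτe
  rw [l.hκ, div_le_div_iff₀ (by positivity) (by positivity)]
  nlinarith

theorem inv_στ (l : Loss r e σ τ κ) : 1 / (σ * τ) = κ / e := by
  have := l.hσ
  have := l.hτ
  have := l.e_pos
  rw [l.hκ]; field_simp

theorem one_le (l : Loss r e σ τ κ) (hr : r ≤ 1) : 1 ≤ κ := by
  have h1 := l.inv_σ
  have := l.hσ
  have h2 : 1 ≤ 1 / σ := by rw [le_div_iff₀ l.hσ]; linarith [l.hσr]
  linarith

end Loss

namespace Ctx

variable {ρ M r e dl E ν σ τ κ : ℝ} {b θ S : ℂ → ℂ → ℂ}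

theorem r1 (h : Ctx ρ M b θ S r e dl E ν) : r ≤ 1 := by
  have := h.G.hρ1; have := h.hr; have := h.hρ; linarith

theorem adm1 (h : Ctx ρ M b θ S r e dl E ν) {x ε : ℂ} (hx : (x, ε) ∈ WW 1 r e) :
    (θ (x - ε) ε, θ x ε) ∈ Om (ρ - 2 * e) (2 * e) ∧
      (θ x ε, θ (x + ε) ε) ∈ Om (ρ - 2 * e) (2 * e) := by
  have hh := half_mem (a := 1 / 2) (r := r) (e := e) (x := x) (ε := ε) (by norm_num; exact hx)
  have e1 : x + ε / 2 + ε / 2 = x + ε := by ring
  have e2 : x + ε / 2 - ε / 2 = x := by ring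
  have e3 : x - ε / 2 + ε / 2 = x := by ring
  have e4 : x - ε / 2 - ε / 2 = x - ε := by ring
  have hp := h.adm hh.1
  have hm := h.adm hh.2
  rw [e1, e2] at hp
  rw [e3, e4] at hm
  exact ⟨hm, hp⟩

theorem adm1' (h : Ctx ρ M b θ S r e dl E ν) {x ε : ℂ} (hx : (x, ε) ∈ WW 1 r e) :
    (θ (x - ε) ε, θ x ε) ∈ Om ρ ρ ∧ (θ x ε, θ (x + ε) ε) ∈ Om ρ ρ := by
  have := h.he0
  have := h.h16
  exact ⟨Om_mono (by linarith) (by linarith) (h.adm1 hx).1,
    Om_mono (by linarith) (by linarith) (h.adm1 hx).2⟩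

theorem W10 {x ε : ℂ} (hx : (x, ε) ∈ WW 1 r e) : (x, ε) ∈ WW 0 r e :=
  WW_mono (by norm_num) le_rfl le_rfl hx

theorem J_EE (h : Ctx ρ M b θ S r e dl E ν) : JD (EE (Fg b) θ) (WW 1 r e) := by
  have h0 : JD θ (WW 1 r e) := h.J_θ.mono (WW_mono (by norm_num) le_rfl le_rfl)
  have hp : JD (fun x ε => θ (x + ε) ε) (WW 1 r e) :=
    JD.comp h.J_θ (JD.fst.add JD.snd) JD.snd fun x ε hx => (one_mem (a := 0) (by simpa using hx)).1
  have hm : JD (fun x ε => θ (x - ε) ε) (WW 1 r e) :=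
    JD.comp h.J_θ (JD.fst.sub JD.snd) JD.snd fun x ε hx => (one_mem (a := 0) (by simpa using hx)).2
  have k1 : JD (fun x ε => de (Fg b) (θ (x - ε) ε) (θ x ε)) (WW 1 r e) :=
    JD.comp ((JD_Fg h.G).de (isOpen_Om _ _)) hm h0 fun x ε hx => (h.adm1' hx).1
  have k2 : JD (fun x ε => dx (Fg b) (θ x ε) (θ (x + ε) ε)) (WW 1 r e) :=
    JD.comp ((JD_Fg h.G).dx (isOpen_Om _ _)) h0 hp fun x ε hx => (h.adm1' hx).2
  exact k1.add k2

theorem B_EE (h : Ctx ρ M b θ S r e dl E ν) : Bd (EE (Fg b) θ) E (WW 1 r e) := h.A.er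

/-! ### Cauchy bounds -/

theorem cau_dx {f : ℂ → ℂ → ℂ} {a N : ℝ} (l : Loss r e σ τ κ) (hf : JD f (WW a r e))
    (hN : Bd f N (WW a r e)) (h0 : 0 ≤ N) : Bd (dx f) (κ * N) (WW a (r - σ) e) := by
  have h1 := Bd.dx (r' := r - σ) hf hN (by linarith [l.hσ])
  refine h1.mono ?_ subset_rfl
  have e1 : r - (r - σ) = σ := by ring
  rw [e1, div_eq_mul_one_div, mul_comm]
  exact mul_le_mul_of_nonneg_right l.inv_σ h0

theorem cau_de {f : ℂ → ℂ → ℂ} {a N : ℝ} (l : Loss r e σ τ κ) (hr : r ≤ 1) (he : e ≤ 1) (ha : 0 ≤ a)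
    (ha1 : a ≤ 1) (hf : JD f (WW a r e)) (hN : Bd f N (WW a r e)) (h0 : 0 ≤ N) :
    Bd (de f) (κ / e * N) (WW a (r - σ) (e - τ)) := by
  have hσ := l.hσ
  have hτ := l.hτ
  have hσ1 : σ ≤ 1 := by linarith [l.hσr]
  have hτ1 : τ ≤ 1 := by linarith [l.hτe]
  have h1 := Bd.de (r' := r - σ) (e' := e - τ) (δ := σ * τ) ha hf hN (by positivity)
    (by nlinarith) (by nlinarith [mul_nonneg hσ.le hτ.le])
  refine h1.mono ?_ subset_rfl
  rw [div_eq_mul_one_div, l.inv_στ, mul_comm]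

/-! ### bound of `G` -/

theorem B_dxf (h : Ctx ρ M b θ S r e dl E ν) (l : Loss r e σ τ κ) :
    Bd (dx (f1 (Fg b) θ S)) (κ * ν) (WW (1 / 2) (r - σ) e) :=
  cau_dx l h.J_f1 h.hf h.hν

theorem B_def (h : Ctx ρ M b θ S r e dl E ν) (l : Loss r e σ τ κ) :
    Bd (de (f1 (Fg b) θ S)) (κ / e * ν) (WW (1 / 2) (r - σ) (e - τ)) :=
  cau_de l h.r1 (by linarith [h.he1]) (by norm_num) (by norm_num) h.J_f1 h.hf h.hν

theorem half_half {f : ℂ → ℂ → ℂ} {N r e : ℝ} (hf : Bd f N (WW 1 r e)) :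
    Bd f N (WW (1 / 2 + 1 / 2) r e) := by
  have : (1 / 2 + 1 / 2 : ℝ) = 1 := by norm_num
  rw [this]; exact hf

theorem half_half' {f : ℂ → ℂ → ℂ} {N r e : ℝ} (hf : Bd f N (WW (1 / 2 + 1 / 2) r e)) :
    Bd f N (WW 1 r e) := by
  have : (1 / 2 + 1 / 2 : ℝ) = 1 := by norm_num
  rwa [this] at hf

theorem B_DG (h : Ctx ρ M b θ S r e dl E ν) (l : Loss r e σ τ κ) :
    Bd (Dl (GG (Fg b) θ S)) (2 * κ * (E + ν)) (WW 1 (r - σ) e) := by
  intro x ε hx
  have hx1 : (x, ε) ∈ WW 1 r e := WW_mono le_rfl (by linarith [l.hσ]) le_rfl hx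
  rw [DG_eq (JD_Fg h.G) (isOpen_Om _ _) h.J_θ h.hS (fun m η hm => h.adm' hm) hx1]
  have h1 := h.B_EE x ε hx1
  have h2 := (h.v_le (W10 hx1)).1
  have h3 := (half_half' (h.B_dxf l).Av) x ε hx
  have hκ := l.one_le h.r1
  have hE := h.hE
  have hν := h.hν
  calc ‖dx θ x ε * EE (Fg b) θ x ε - Av (dx (f1 (Fg b) θ S)) x ε‖
      ≤ ‖dx θ x ε‖ * ‖EE (Fg b) θ x ε‖ + ‖Av (dx (f1 (Fg b) θ S)) x ε‖ := by
        refine (norm_sub_le _ _).trans ?_
        rw [norm_mul]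
    _ ≤ 51 / 50 * E + κ * ν := by gcongr
    _ ≤ 2 * κ * (E + ν) := by
        have i1 : (0 : ℝ) ≤ κ - 1 := by linarith
        have i2 : (0 : ℝ) ≤ κ := by linarith
        nlinarith [mul_nonneg i1 hE, mul_nonneg i2 hν]

theorem l1const (l : Loss r e σ τ κ) : 3 / (σ * τ) = 3 * (κ / e) := by
  rw [← l.inv_στ]; ring

/-- `G - mn G` -/
theorem B_G0 (h : Ctx ρ M b θ S r e dl E ν) (l : Loss r e σ τ κ) :
    Bd (fun x ε => GG (Fg b) θ S x ε - mn (GG (Fg b) θ S) ε) (6 * (κ ^ 2 * (E + ν) / e))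
      (WW (1 / 2) (r - 2 * σ) (e - τ)) := by
  have hσ := l.hσ
  have hτ := l.hτ
  have hκ := l.κ_pos
  have hE := h.hE
  have hν := h.hν
  have := H900.L1_sharp (a := 1 / 2) (r := r - σ) (e := e) (r' := r - 2 * σ) (e' := e - τ)
    (μ := 2 * κ * (E + ν)) (by norm_num) le_rfl (by linarith [l.her]) (by linarith) (by linarith)
    (by linarith [l.hτe, h.he1]) (by positivity)
    (h.J_GG.mono (WW_mono le_rfl (by linarith) le_rfl))
    (h.P_GG.mono (WW_mono le_rfl (by linarith) le_rfl)) (half_half (h.B_DG l))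
  refine this.mono (le_of_eq ?_) subset_rfl
  have e1 : r - σ - (r - 2 * σ) = σ := by ring
  have e2 : e - (e - τ) = τ := by ring
  rw [e1, e2, l1const l]
  ring

theorem B_mnG (h : Ctx ρ M b θ S r e dl E ν) (l : Loss r e σ τ κ) :
    Bd (fun _ ε => mn (GG (Fg b) θ S) ε) (9 * (κ ^ 2 * (E + ν) / e))
      (WW (1 / 2) (r - 2 * σ) (e - τ)) := by
  intro x ε hx
  have hσ := l.hσ
  have hτ := l.hτ
  have hκ := l.one_le h.r1
  have hE := h.hE
  have hν := h.hν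
  have he := h.he0
  have he1 := h.he1
  have hB' : ε ∈ BB (1 / 2) (r - 2 * σ) (e - τ) := mem_BB hx
  have hB : ε ∈ BB (1 / 2) r e := by
    have := hB'
    unfold BB at this ⊢
    exact WW_mono le_rfl (by linarith) (by linarith) this
  have hB0 : ε ∈ BB 0 r e := by
    have := hB
    unfold BB at this ⊢
    exact WW_mono (by norm_num) (by linarith) (by linarith) this
  set K : ℂ → ℂ → ℂ := fun x ε => (1 + Dl (aa θ) x ε) *
    (GG (Fg b) θ S x ε - mn (GG (Fg b) θ S) ε) + de (f1 (Fg b) θ S) x ε -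
      Av (aa θ) x ε * dx (f1 (Fg b) θ S) x ε with hK
  have JK : JD K (WW (1 / 2) r e) :=
    ((((JD.const 1).add (J_Dl h.J_aa)).mul (h.J_GG.sub h.J_GG.mn)).add
      (h.J_f1.de (isOpen_WW _ _ _))).sub ((J_Av h.J_aa).mul (h.J_f1.dx (isOpen_WW _ _ _)))
  have hV : mn (Dl (VV (Fg b) θ S)) ε = 0 :=
    mn_Dl le_rfl h.J_VV h.P_VV (by simpa using hB)
  have ha : mn (Dl (aa θ)) ε = 0 := mn_Dl le_rfl h.J_aa h.P_aa (by simpa using hB)
  have h1 : mn (Dl (VV (Fg b) θ S)) ε =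
      mn (fun x ε => -((1 + Dl (aa θ) x ε) * mn (GG (Fg b) θ S) ε) - K x ε) ε := by
    apply mn_congr
    intro t
    rw [DV_eq (JD_Fg h.G) (isOpen_Om _ _) h.J_θ h.hS (fun η hη => h.mn_dat hη)
      (fun m η hm => h.adm' hm) (fun y η hy => h.v_ne hy) (BB_real hB t)]
    simp only [hK]
    ring
  have h2 : mn (fun x ε => -((1 + Dl (aa θ) x ε) * mn (GG (Fg b) θ S) ε) - K x ε) ε =
      -mn (GG (Fg b) θ S) ε - mn K ε := by
    rw [mn_sub (f := fun x ε => -((1 + Dl (aa θ) x ε) * mn (GG (Fg b) θ S) ε))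
      (((((JD.const 1).add (J_Dl h.J_aa)).mul h.J_GG.mn)).neg) JK hB, mn_neg, mn_mul_snd
      (fun x ε => 1 + Dl (aa θ) x ε) (fun ε => mn (GG (Fg b) θ S) ε),
      mn_add (JD.const 1) (J_Dl h.J_aa) hB, ha, mn_snd (fun _ => 1)]
    ring
  have h3 : mn (GG (Fg b) θ S) ε = -mn K ε := by
    have := h1.symm.trans hV
    rw [h2] at this
    linear_combination -this
  have h4 : Bd K (9 * (κ ^ 2 * (E + ν) / e)) (WW (1 / 2) (r - 2 * σ) (e - τ)) := by
    intro y η hy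
    have hy1 : (y, η) ∈ WW (1 / 2) r e := WW_mono le_rfl (by linarith) (by linarith) hy
    have k1 := h.B_G0 l y η hy
    have k2 : ‖Dl (aa θ) y η‖ ≤ 2 * (1 / 49) := h.aa_le.Dl y η (by simpa using hy1)
    have k3 : ‖Av (aa θ) y η‖ ≤ 1 / 49 := h.aa_le.Av y η (by simpa using hy1)
    have k4 := h.B_dxf l y η (WW_mono le_rfl (by linarith) (by linarith) hy)
    have k5 := h.B_def l y η (WW_mono le_rfl (by linarith) (by linarith) hy)
    have k6 : ‖1 + Dl (aa θ) y η‖ ≤ 51 / 49 := by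
      refine (norm_add_le _ _).trans ?_
      rw [norm_one]; linarith
    set K1 := κ ^ 2 * (E + ν) / e with hK1
    have hK10 : 0 ≤ K1 := by positivity
    have k7 : κ / e * ν ≤ K1 := by
      rw [hK1, div_mul_eq_mul_div]
      apply div_le_div_of_nonneg_right _ he.le
      nlinarith [mul_nonneg (by linarith : (0 : ℝ) ≤ κ) hν,
        mul_nonneg (by nlinarith : (0 : ℝ) ≤ κ ^ 2 - κ) hν, mul_nonneg (sq_nonneg κ) hE]
    have k8 : κ * ν ≤ K1 := by
      refine le_trans ?_ k7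
      rw [div_mul_eq_mul_div, le_div_iff₀ he]
      have : 0 ≤ κ * ν := by positivity
      nlinarith
    calc ‖(1 + Dl (aa θ) y η) * (GG (Fg b) θ S y η - mn (GG (Fg b) θ S) η) +
          de (f1 (Fg b) θ S) y η - Av (aa θ) y η * dx (f1 (Fg b) θ S) y η‖
        ≤ ‖1 + Dl (aa θ) y η‖ * ‖GG (Fg b) θ S y η - mn (GG (Fg b) θ S) η‖ +
          ‖de (f1 (Fg b) θ S) y η‖ + ‖Av (aa θ) y η‖ * ‖dx (f1 (Fg b) θ S) y η‖ := by
          refine (norm_sub_le _ _).trans ?_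
          rw [norm_mul]
          gcongr
          refine (norm_add_le _ _).trans ?_
          rw [norm_mul]
      _ ≤ 51 / 49 * (6 * K1) + K1 + 1 / 49 * K1 := by
          gcongr
          · exact k5.trans k7
          · exact k4.trans k8
      _ ≤ 9 * K1 := by linarith
  rw [show (fun (_ : ℂ) ε => mn (GG (Fg b) θ S) ε) x ε = -mn K ε from h3, norm_neg]
  exact norm_mn_le h4 hB'

theorem B_G (h : Ctx ρ M b θ S r e dl E ν) (l : Loss r e σ τ κ) :
    Bd (GG (Fg b) θ S) (15 * (κ ^ 2 * (E + ν) / e)) (WW (1 / 2) (r - 2 * σ) (e - τ)) := by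
  intro x ε hx
  have h1 := h.B_G0 l x ε hx
  have h2 := h.B_mnG l x ε hx
  have h3 := norm_add_le (GG (Fg b) θ S x ε - mn (GG (Fg b) θ S) ε) (mn (GG (Fg b) θ S) ε)
  rw [sub_add_cancel] at h3
  linarith

/-- `κ ν / e ≤ κ² (E + ν) / e` and `κ ν ≤ κ² (E + ν) / e` -/
theorem nu_le (h : Ctx ρ M b θ S r e dl E ν) (l : Loss r e σ τ κ) :
    κ / e * ν ≤ κ ^ 2 * (E + ν) / e ∧ κ * ν ≤ κ / e * ν ∧ 0 ≤ κ ^ 2 * (E + ν) / e := by
  have hκ := l.one_le h.r1
  have hE := h.hE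
  have hν := h.hν
  have he := h.he0
  have he1 := h.he1
  refine ⟨?_, ?_, by positivity⟩
  · rw [div_mul_eq_mul_div]
    apply div_le_div_of_nonneg_right _ he.le
    nlinarith [mul_nonneg (by linarith : (0 : ℝ) ≤ κ) hν,
      mul_nonneg (by nlinarith : (0 : ℝ) ≤ κ ^ 2 - κ) hν, mul_nonneg (sq_nonneg κ) hE]
  · rw [div_mul_eq_mul_div, le_div_iff₀ he]
    have : 0 ≤ κ * ν := by positivity
    nlinarith

theorem B_DV (h : Ctx ρ M b θ S r e dl E ν) (l : Loss r e σ τ κ) :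
    Bd (Dl (VV (Fg b) θ S)) (18 * (κ ^ 2 * (E + ν) / e)) (WW (1 / 2) (r - 2 * σ) (e - τ)) := by
  intro y η hy
  have hσ := l.hσ
  have hτ := l.hτ
  have hy1 : (y, η) ∈ WW (1 / 2) r e := WW_mono le_rfl (by linarith) (by linarith) hy
  rw [DV_eq (JD_Fg h.G) (isOpen_Om _ _) h.J_θ h.hS (fun η hη => h.mn_dat hη)
      (fun m η hm => h.adm' hm) (fun y η hy => h.v_ne hy) hy1]
  have k1 := h.B_G l y η hy
  have k2 : ‖Dl (aa θ) y η‖ ≤ 2 * (1 / 49) := h.aa_le.Dl y η (by simpa using hy1)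
  have k3 : ‖Av (aa θ) y η‖ ≤ 1 / 49 := h.aa_le.Av y η (by simpa using hy1)
  have k4 := h.B_dxf l y η (WW_mono le_rfl (by linarith) (by linarith) hy)
  have k5 := h.B_def l y η (WW_mono le_rfl (by linarith) (by linarith) hy)
  have k6 : ‖-(1 + Dl (aa θ) y η)‖ ≤ 51 / 49 := by
    rw [norm_neg]
    refine (norm_add_le _ _).trans ?_
    rw [norm_one]; linarith
  obtain ⟨n1, n2, n3⟩ := h.nu_le l
  calc ‖-(1 + Dl (aa θ) y η) * GG (Fg b) θ S y η - de (f1 (Fg b) θ S) y η +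
        Av (aa θ) y η * dx (f1 (Fg b) θ S) y η‖
      ≤ ‖-(1 + Dl (aa θ) y η)‖ * ‖GG (Fg b) θ S y η‖ +
        ‖de (f1 (Fg b) θ S) y η‖ + ‖Av (aa θ) y η‖ * ‖dx (f1 (Fg b) θ S) y η‖ := by
        refine (norm_add_le _ _).trans ?_
        rw [norm_mul (Av (aa θ) y η)]
        gcongr
        refine (norm_sub_le _ _).trans ?_
        rw [norm_mul]
    _ ≤ 51 / 49 * (15 * (κ ^ 2 * (E + ν) / e)) + κ ^ 2 * (E + ν) / e +
        1 / 49 * (κ ^ 2 * (E + ν) / e) := by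
        gcongr
        · exact k5.trans n1
        · exact k4.trans (n2.trans n1)
    _ ≤ 18 * (κ ^ 2 * (E + ν) / e) := by linarith

/-- `V - mn V` -/
theorem B_V0 (h : Ctx ρ M b θ S r e dl E ν) (l : Loss r e σ τ κ) :
    Bd (fun x ε => VV (Fg b) θ S x ε - mn (VV (Fg b) θ S) ε) (54 * (κ ^ 3 * (E + ν) / e ^ 2))
      (WW 0 (r - 3 * σ) (e - 2 * τ)) := by
  have hσ := l.hσ
  have hτ := l.hτ
  have hκ := l.κ_pos
  have hE := h.hE
  have hν := h.hν
  have he := h.he0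
  have := H900.L1_sharp (a := 0) (r := r - 2 * σ) (e := e - τ) (r' := r - 3 * σ) (e' := e - 2 * τ)
    (μ := 18 * (κ ^ 2 * (E + ν) / e)) le_rfl (by norm_num) (by linarith [l.her]) (by linarith)
    (by linarith) (by linarith [l.hτe, h.he1]) (by positivity)
    (h.J_VV.mono (WW_mono le_rfl (by linarith) (by linarith)))
    (h.P_VV.mono (WW_mono le_rfl (by linarith) (by linarith)))
    (by simpa using h.B_DV l)
  refine this.mono (le_of_eq ?_) subset_rfl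
  have e1 : r - 2 * σ - (r - 3 * σ) = σ := by ring
  have e2 : e - τ - (e - 2 * τ) = τ := by ring
  rw [e1, e2, l1const l]
  field_simp
  ring

theorem B_DJ (h : Ctx ρ M b θ S r e dl E ν) (l : Loss r e σ τ κ) :
    Bd (Dl (JJ (Fg b) θ)) (2 * (κ * E / e)) (WW 1 (r - σ) (e - τ)) := by
  intro x ε hx
  have hσ := l.hσ
  have hτ := l.hτ
  have hκ := l.κ_pos
  have hE := h.hE
  have he := h.he0
  have he1 := h.he1
  have hx1 : (x, ε) ∈ WW 1 r e := WW_mono le_rfl (by linarith) (by linarith) hx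
  rw [DJ_eq (JD_Fg h.G) (isOpen_Om _ _) h.J_θ (fun m η hm => h.adm' hm)
    (fun y η hy => h.v_ne hy) hx1]
  have k1 := cau_dx l h.J_EE h.B_EE h.hE x ε (WW_mono le_rfl le_rfl (by linarith) hx)
  have k2 := cau_de l h.r1 (by linarith) (by norm_num) le_rfl h.J_EE h.B_EE h.hE x ε hx
  have k3 := (h.v_le (W10 hx1)).1
  have k4 := h.aa_le x ε (W10 hx1)
  have k5 : κ * E ≤ κ / e * E := by
    rw [div_mul_eq_mul_div, le_div_iff₀ he]
    have : 0 ≤ κ * E := by positivity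
    nlinarith
  have k6 : κ / e * E = κ * E / e := by ring
  have k7 : 0 ≤ κ * E / e := by positivity
  calc ‖dx θ x ε * (aa θ x ε * dx (EE (Fg b) θ) x ε - de (EE (Fg b) θ) x ε)‖
      ≤ ‖dx θ x ε‖ * (‖aa θ x ε‖ * ‖dx (EE (Fg b) θ) x ε‖ + ‖de (EE (Fg b) θ) x ε‖) := by
        rw [norm_mul]
        gcongr
        refine (norm_sub_le _ _).trans ?_
        rw [norm_mul]
    _ ≤ 51 / 50 * (1 / 49 * (κ * E / e) + κ * E / e) := by
        gcongr
        · exact k1.trans (k5.trans (le_of_eq k6))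
        · exact k2.trans (le_of_eq k6)
    _ ≤ 2 * (κ * E / e) := by linarith

/-- `J - mn J` -/
theorem B_J0 (h : Ctx ρ M b θ S r e dl E ν) (l : Loss r e σ τ κ) :
    Bd (fun x ε => JJ (Fg b) θ x ε - mn (JJ (Fg b) θ) ε) (6 * (κ ^ 2 * E / e ^ 2))
      (WW (1 / 2) (r - 2 * σ) (e - 2 * τ)) := by
  have hσ := l.hσ
  have hτ := l.hτ
  have hκ := l.κ_pos
  have hE := h.hE
  have he := h.he0
  have := H900.L1_sharp (a := 1 / 2) (r := r - σ) (e := e - τ) (r' := r - 2 * σ) (e' := e - 2 * τ)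
    (μ := 2 * (κ * E / e)) (by norm_num) le_rfl (by linarith [l.her]) (by linarith) (by linarith)
    (by linarith [l.hτe, h.he1]) (by positivity)
    (h.J_JJ.mono (WW_mono le_rfl (by linarith) (by linarith)))
    (h.P_JJ.mono (WW_mono le_rfl (by linarith) (by linarith))) (half_half (h.B_DJ l))
  refine this.mono (le_of_eq ?_) subset_rfl
  have e1 : r - σ - (r - 2 * σ) = σ := by ring
  have e2 : e - τ - (e - 2 * τ) = τ := by ring
  rw [e1, e2, l1const l]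
  field_simp
  ring

end Ctx

end Vale.Agent.P097.TA.H477
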