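import Mathlib
import Vale.Agent.P097.H477.Bds

/-! # P097 / Theorem A, package A5: the correction `u = v U` of one Newton step -/

set_option linter.all false

open Set Filter Metric Topology
open scoped ComplexConjugate

namespace Vale.Agent.P097.TA.H477

open Vale.Agent.P097.TA

namespace Ctx

variable {ρ M r e dl E ν σ τ κ : ℝ} {b θ S : ℂ → ℂ → ℂ}

/-! ### parity and reality of the ingredients -/

theorem E_v (h : Ctx ρ M b θ S r e dl E ν) : Ev (dx θ) (WW 0 r e) := Ev.dx h.A.ev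

theorem O_w (h : Ctx ρ M b θ S r e dl E ν) : Od (de θ) (WW 0 r e) := Ev.de h.A.ev

theorem O_aa (h : Ctx ρ M b θ S r e dl E ν) : Od (aa θ) (WW 0 r e) := by
  intro x ε hx
  unfold aa
  rw [h.E_v x ε hx, h.O_w x ε hx, neg_div]

theorem half_neg (x ε : ℂ) : x - -ε / 2 = x + ε / 2 ∧ x + -ε / 2 = x - ε / 2 := by
  constructor <;> ring

theorem O_fF (h : Ctx ρ M b θ S r e dl E ν) : Od (fF (Fg b) θ) (WW (1 / 2) r e) := by
  intro x ε hx
  unfold fF
  rw [(half_neg x ε).1, (half_neg x ε).2, h.A.ev _ _ (hp hx), h.A.ev _ _ (hm hx),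
    Fg_anti h.G (h.adm' hx)]

theorem E_mnf' (h : Ctx ρ M b θ S r e dl E ν) {ε : ℂ} (hε : ‖ε‖ < e) :
    deriv (mn (fF (Fg b) θ)) (-ε) = deriv (mn (fF (Fg b) θ)) ε := by
  have h1 := (Od.de (h.O_fF.mn)) 0 ε (h.BBeq hε (by norm_num) (by norm_num))
  exact h1

theorem R_mnf' (h : Ctx ρ M b θ S r e dl E ν)
    (hR : Rl (fF (Fg b) θ) (WW (1 / 2) r e)) {ε : ℂ} (hε : ‖ε‖ < e) :
    deriv (mn (fF (Fg b) θ)) (conj ε) = conj (deriv (mn (fF (Fg b) θ)) ε) := by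
  have h1 := (Rl.de (hR.mn)) 0 ε (h.BBeq hε (by norm_num) (by norm_num))
  exact h1

theorem O_VV (h : Ctx ρ M b θ S r e dl E ν) : Od (VV (Fg b) θ S) (WW 0 r e) := by
  intro x ε hx
  unfold VV
  rw [Ev.de h.hSe x ε hx, Ev.dx h.hSe x ε hx, h.O_aa x ε hx, h.E_mnf' hx.1]
  ring

theorem O_cF (h : Ctx ρ M b θ S r e dl E ν) : Od (cF (Fg b) θ) (WW (1 / 2) r e) := by
  intro x ε hx
  unfold cF
  rw [(half_neg x ε).1, (half_neg x ε).2, h.A.ev _ _ (hp hx), h.A.ev _ _ (hm hx),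
    h.E_v _ _ (hp hx), h.E_v _ _ (hm hx), dxde_anti h.G (h.adm' hx)]
  ring

theorem O_JJ (h : Ctx ρ M b θ S r e dl E ν) : Od (JJ (Fg b) θ) (WW (1 / 2) r e) := by
  intro x ε hx
  have h1 : Dl (aa θ) x (-ε) = Dl (aa θ) x ε := by
    unfold Dl
    rw [(half_neg x ε).1, (half_neg x ε).2, h.O_aa _ _ (hp hx), h.O_aa _ _ (hm hx)]
    ring
  unfold JJ
  rw [h.O_cF x ε hx, h1]
  ring

theorem R_v (h : Ctx ρ M b θ S r e dl E ν) : Rl (dx θ) (WW 0 r e) := Rl.dx h.A.re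

theorem R_w (h : Ctx ρ M b θ S r e dl E ν) : Rl (de θ) (WW 0 r e) := Rl.de h.A.re

theorem R_aa (h : Ctx ρ M b θ S r e dl E ν) : Rl (aa θ) (WW 0 r e) := by
  intro x ε hx
  unfold aa
  rw [h.R_v x ε hx, h.R_w x ε hx, map_div₀]

theorem R_half {f : ℂ → ℂ → ℂ} (hf : Rl f (WW 0 r e)) {x ε : ℂ} (hx : (x, ε) ∈ WW (1 / 2) r e) :
    f (conj x + conj ε / 2) (conj ε) = conj (f (x + ε / 2) ε) ∧
    f (conj x - conj ε / 2) (conj ε) = conj (f (x - ε / 2) ε) :=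
  Rl.half hf (by simpa using hx)

theorem R_fF (h : Ctx ρ M b θ S r e dl E ν) : Rl (fF (Fg b) θ) (WW (1 / 2) r e) := by
  intro x ε hx
  have h1 := R_half h.A.re hx
  unfold fF
  rw [h1.1, h1.2, Fg_real h.G (h.adm' hx)]

theorem R_VV (h : Ctx ρ M b θ S r e dl E ν) : Rl (VV (Fg b) θ S) (WW 0 r e) := by
  intro x ε hx
  unfold VV
  rw [Rl.de h.hSr x ε hx, Rl.dx h.hSr x ε hx, h.R_aa x ε hx, h.R_mnf' h.R_fF hx.1]
  simp only [map_sub, map_mul, map_add]

theorem R_cF (h : Ctx ρ M b θ S r e dl E ν) : Rl (cF (Fg b) θ) (WW (1 / 2) r e) := by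
  intro x ε hx
  have h1 := R_half h.A.re hx
  have h2 := R_half h.R_v hx
  unfold cF
  rw [h1.1, h1.2, h2.1, h2.2, real_dx (N := de (Fg b))
    (fun p q hpq => real_de (fun s t hst => Fg_real h.G hst) hpq) (h.adm' hx)]
  simp only [map_mul, map_neg]

theorem R_JJ (h : Ctx ρ M b θ S r e dl E ν) : Rl (JJ (Fg b) θ) (WW (1 / 2) r e) := by
  intro x ε hx
  have h2 := R_half h.R_aa hx
  unfold JJ Dl
  rw [h.R_cF x ε hx, h2.1, h2.2]
  simp only [map_mul, map_add, map_sub, map_one]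

/-! ### the function `U` -/

/-- `Z = V - mn V` -/
noncomputable def ZZ (b θ S : ℂ → ℂ → ℂ) (x ε : ℂ) : ℂ :=
  VV (Fg b) θ S x ε - mn (VV (Fg b) θ S) ε

theorem J_ZZ (h : Ctx ρ M b θ S r e dl E ν) : JD (ZZ b θ S) (WW 0 r e) := h.J_VV.sub h.J_VV.mn

theorem P_ZZ (h : Ctx ρ M b θ S r e dl E ν) : Per (ZZ b θ S) (WW 0 r e) := by
  intro x ε hx
  unfold ZZ
  rw [h.P_VV x ε hx]

theorem O_ZZ (h : Ctx ρ M b θ S r e dl E ν) : Od (ZZ b θ S) (WW 0 r e) := by
  intro x ε hx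
  have h1 := h.O_VV.mn x ε hx
  unfold ZZ
  rw [h.O_VV x ε hx]
  simp only at h1
  rw [h1]; ring

theorem R_ZZ (h : Ctx ρ M b θ S r e dl E ν) : Rl (ZZ b θ S) (WW 0 r e) := by
  intro x ε hx
  have h1 := h.R_VV.mn x ε hx
  unfold ZZ
  rw [h.R_VV x ε hx]
  simp only at h1
  rw [h1, map_sub]

theorem mnJ_lower (h : Ctx ρ M b θ S r e dl E ν) {ε : ℂ} (hε : ‖ε‖ < e) :
    3 / 4 * ‖ε‖ ≤ ‖mn (JJ (Fg b) θ) ε‖ := by
  have h1 := h.mnJ_near hε
  have h2 := norm_sub_norm_le ε (ε - mn (JJ (Fg b) θ) ε)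
  rw [sub_sub_cancel, norm_sub_rev ε] at h2
  linarith

theorem mnJ_ne (h : Ctx ρ M b θ S r e dl E ν) {ε : ℂ} (hε : ‖ε‖ < e) (h0 : ε ≠ 0) :
    mn (JJ (Fg b) θ) ε ≠ 0 := by
  intro h1
  have h2 := h.mnJ_lower hε
  rw [h1, norm_zero] at h2
  have := norm_pos_iff.2 h0
  linarith

theorem J_mnJ (h : Ctx ρ M b θ S r e dl E ν) : JD (fun _ ε => mn (JJ (Fg b) θ) ε) (WW 0 r e) :=
  JD.comp_snd (differentiableOn_mn h.J_JJ) fun x ε hx => h.BBeq hx.1 (by norm_num) (by norm_num)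

theorem ev_ne {P : ℂ → Prop} {x ε : ℂ} {r e : ℝ} (hx : (x, ε) ∈ WW 0 r e) {q : ℂ → ℂ}
    (hq : ContinuousAt q ε) {C : Set ℂ} (hC : IsClosed C)
    (h : ∀ t : ℂ, t ≠ ε → (x, t) ∈ WW 0 r e → q t ∈ C) : q ε ∈ C := by
  have h1 : Tendsto q (𝓝[≠] ε) (𝓝 (q ε)) := hq.tendsto.mono_left nhdsWithin_le_nhds
  refine hC.mem_of_tendsto h1 ?_
  have h2 : ∀ᶠ t in 𝓝[≠] ε, (x, t) ∈ WW 0 r e := (ev_mem_e hx).filter_mono nhdsWithin_le_nhds
  filter_upwards [h2, self_mem_nhdsWithin] with t ht hne using h t hne ht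

/-- existence of `U = - (V - mn V) / mn J` -/
theorem exists_U (h : Ctx ρ M b θ S r e dl E ν) (l : Loss r e σ τ κ) :
    ∃ U : ℂ → ℂ → ℂ, JD U (WW 0 (r - 3 * σ) (e - 2 * τ)) ∧ Per U (WW 0 (r - 3 * σ) (e - 2 * τ)) ∧
      Ev U (WW 0 (r - 3 * σ) (e - 2 * τ)) ∧ Rl U (WW 0 (r - 3 * σ) (e - 2 * τ)) ∧
      (∀ x ε : ℂ, (x, ε) ∈ WW 0 (r - 3 * σ) (e - 2 * τ) → ε ≠ 0 →
        U x ε = -ZZ b θ S x ε / mn (JJ (Fg b) θ) ε) ∧
      Bd U (144 * (κ ^ 3 * (E + ν) / e ^ 3)) (WW 0 (r - 3 * σ) (e - 2 * τ)) := by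
  have hσ := l.hσ
  have hτ := l.hτ
  have hκ := l.κ_pos
  have hE := h.hE
  have hν := h.hν
  have he := h.he0
  set D := WW 0 (r - 3 * σ) (e - 2 * τ) with hD
  have hsub : D ⊆ WW 0 r e := WW_mono le_rfl (by linarith) (by linarith)
  have hO : IsOpen D := isOpen_WW _ _ _
  have hsr : ∀ x : ℂ, |x.im| < r - 3 * σ → (x, (0 : ℂ)) ∈ WW 0 r e := by
    intro x hx
    rw [mem_WW]
    simp only [norm_zero, Complex.zero_im, abs_zero, mul_zero, add_zero]
    exact ⟨he, by linarith⟩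
  have hZ0 : ∀ x : ℂ, |x.im| < r - 3 * σ → ZZ b θ S x 0 = 0 := by
    intro x hx
    have h1 := h.O_ZZ x 0 (hsr x hx)
    rw [neg_zero] at h1
    have h2 : (2 : ℂ) * ZZ b θ S x 0 = 0 := by linear_combination h1
    simpa using h2
  have hY0 : mn (JJ (Fg b) θ) 0 = 0 := by
    have := h.mnJ_near (ε := 0) (by simpa using he)
    simpa using this
  obtain ⟨q, hq, hq1, hq2, hq3⟩ := exists_div_e (h.J_ZZ.mono hsub) hZ0
  obtain ⟨y, hy, hy1, hy2, hy3⟩ := exists_div_e (h.J_mnJ.mono hsub) (fun x _ => hY0)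
  have hyn : ∀ x ε : ℂ, (x, ε) ∈ D → ‖y x ε - 1‖ ≤ 1 / 4 := by
    have k1 : ∀ x ε : ℂ, (x, ε) ∈ D → ε ≠ 0 → ‖y x ε - 1‖ ≤ 1 / 4 := by
      intro x ε hx hε
      rw [hy3 x ε hε]
      have h1 := h.mnJ_near (ε := ε) (by have := hx.1; linarith)
      have e1 : mn (JJ (Fg b) θ) ε / ε - 1 = (mn (JJ (Fg b) θ) ε - ε) / ε := by
        field_simp
      rw [e1, norm_div, div_le_iff₀ (norm_pos_iff.2 hε)]
      exact h1
    intro x ε hx
    by_cases hε : ε = 0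
    · subst hε
      have hc : ContinuousAt (fun t => y x t) 0 :=
        (hy.hasDerivAt_e hO hx).continuousAt
      have := ev_ne (P := fun _ => True) (q := fun t => y x t) hx hc
        (C := closedBall 1 (1 / 4)) isClosed_closedBall (fun t ht htm => by
          rw [mem_closedBall, dist_eq_norm]; exact k1 x t htm ht)
      rwa [mem_closedBall, dist_eq_norm] at this
    · exact k1 x ε hx hε
  have hyl : ∀ x ε : ℂ, (x, ε) ∈ D → 3 / 4 ≤ ‖y x ε‖ := by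
    intro x ε hx
    have h1 := hyn x ε hx
    have h2 := norm_sub_norm_le (1 : ℂ) (1 - y x ε)
    rw [sub_sub_cancel, norm_one, norm_sub_rev] at h2
    linarith
  have hyne : ∀ x ε : ℂ, (x, ε) ∈ D → y x ε ≠ 0 := by
    intro x ε hx h0
    have := hyl x ε hx
    rw [h0, norm_zero] at this
    linarith
  have hU0 : ∀ x ε : ℂ, (x, ε) ∈ D → ε ≠ 0 → -q x ε / y x ε =
      -ZZ b θ S x ε / mn (JJ (Fg b) θ) ε := by
    intro x ε hx hε
    rw [hq3 x ε hε, hy3 x ε hε]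
    have := h.mnJ_ne (ε := ε) (by have := hx.1; linarith) hε
    field_simp
  have hJ : JD (fun x ε => -q x ε / y x ε) D := hq.neg.div hy hyne
  have hcont : ∀ x : ℂ, (x, (0 : ℂ)) ∈ D → ContinuousAt (fun t => -q x t / y x t) 0 :=
    fun x hx => (hJ.hasDerivAt_e hO hx).continuousAt
  refine ⟨fun x ε => -q x ε / y x ε, hJ, ?_, ?_, ?_, hU0, ?_⟩
  · intro x ε hx
    have hx1 : (x + 1, ε) ∈ D := WW_one hx
    by_cases hε : ε = 0
    · subst hε
      have hc1 : ContinuousAt (fun t => -q (x + 1) t / y (x + 1) t - -q x t / y x t) 0 :=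
        (hcont _ hx1).sub (hcont _ hx)
      have := ev_ne (P := fun _ => True) hx hc1 (C := {0}) isClosed_singleton (fun t ht htm => by
        rw [mem_singleton_iff, hU0 _ t (WW_one htm) ht, hU0 _ t htm ht,
          h.P_ZZ x t (hsub htm), sub_self])
      exact sub_eq_zero.1 (mem_singleton_iff.1 this)
    · show -q (x + 1) ε / y (x + 1) ε = -q x ε / y x ε
      rw [hU0 _ ε hx1 hε, hU0 _ ε hx hε, h.P_ZZ x ε (hsub hx)]
  · intro x ε hx
    by_cases hε : ε = 0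
    · subst hε; simp
    · have hε' : -ε ≠ 0 := neg_ne_zero.2 hε
      show -q x (-ε) / y x (-ε) = -q x ε / y x ε
      have h2 := h.O_JJ.mn 0 ε (h.BBeq (by have := hx.1; linarith) (by norm_num) (by norm_num))
      simp only at h2
      rw [hU0 _ _ (WW_neg hx) hε', hU0 _ ε hx hε, h.O_ZZ x ε (hsub hx), h2, neg_div_neg_eq]
  · intro x ε hx
    by_cases hε : ε = 0
    · subst hε
      have hx' : (conj x, (0 : ℂ)) ∈ D := by simpa using WW_conj hx
      have hcj : Continuous (fun t : ℂ => conj t) := Complex.continuous_conj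
      have hc1 : ContinuousAt (fun t : ℂ => -q (conj x) (conj t) / y (conj x) (conj t)) 0 :=
        ContinuousAt.comp_of_eq (g := fun t => -q (conj x) t / y (conj x) t) (hcont _ hx')
          hcj.continuousAt (by simp)
      have hc2 : ContinuousAt (fun t : ℂ => conj (-q x t / y x t)) 0 :=
        hcj.continuousAt.comp (hcont _ hx)
      have hc3 : ContinuousAt (fun t : ℂ => -q (conj x) (conj t) / y (conj x) (conj t) -
          conj (-q x t / y x t)) 0 := hc1.sub hc2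
      have := ev_ne (P := fun _ => True) hx hc3 (C := {0}) isClosed_singleton
        (fun t ht htm => by
          rw [mem_singleton_iff]
          have h2 := h.R_JJ.mn 0 t (h.BBeq (by have := htm.1; linarith) (by norm_num)
            (by norm_num))
          simp only at h2
          rw [hU0 _ _ (WW_conj htm) (by simpa using ht), hU0 _ t htm ht, h.R_ZZ x t (hsub htm), h2]
          simp only [map_div₀, map_neg, sub_self])
      exact sub_eq_zero.1 (mem_singleton_iff.1 this)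
    · have hε' : conj ε ≠ 0 := by simpa using hε
      show -q (conj x) (conj ε) / y (conj x) (conj ε) = conj (-q x ε / y x ε)
      have h2 := h.R_JJ.mn 0 ε (h.BBeq (by have := hx.1; linarith) (by norm_num) (by norm_num))
      simp only at h2
      rw [hU0 _ _ (WW_conj hx) hε', hU0 _ ε hx hε, h.R_ZZ x ε (hsub hx), h2]
      simp only [map_div₀, map_neg]
  · have hb := Bd.div_pow (k := 1) (r' := r - 3 * σ) (δ := e / 2) le_rfl hq
      (fun x ε hx => by rw [pow_one]; exact hq1 x ε hx) (h.B_V0 l) (by positivity)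
      (by linarith [l.hτe]) (by simp) le_rfl
    intro x ε hx
    show ‖-q x ε / y x ε‖ ≤ _
    rw [norm_div, norm_neg, div_le_iff₀ (by linarith [hyl x ε hx])]
    have h1 := hb x ε hx
    have h2 := hyl x ε hx
    have e1 : 54 * (κ ^ 3 * (E + ν) / e ^ 2) / (e / 2) ^ 1 =
        144 * (κ ^ 3 * (E + ν) / e ^ 3) * (3 / 4) := by
      field_simp; ring
    rw [e1] at h1
    refine h1.trans ?_
    gcongr

end Ctx

end Vale.Agent.P097.TA.H477
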