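import Mathlib
import Vale.Agent.P097.H477.Upd

/-! # P097 / Theorem A, package A5: one Newton step -/

set_option linter.all false

open Set Filter Metric Topology
open scoped ComplexConjugate

namespace Vale.Agent.P097.TA.H477

open Vale.Agent.P097.TA

/-- the small remainder in `c D U = G + W` -/
noncomputable def WWr (b θ S : ℂ → ℂ → ℂ) (m ε : ℂ) : ℂ :=
  (JJ (Fg b) θ m ε - mn (JJ (Fg b) θ) ε) / mn (JJ (Fg b) θ) ε * GG (Fg b) θ S m ε +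
    cF (Fg b) θ m ε / mn (JJ (Fg b) θ) ε *
      (de (f1 (Fg b) θ S) m ε - Av (aa θ) m ε * dx (f1 (Fg b) θ S) m ε)

namespace Ctx

variable {ρ M r e dl E ν σ τ κ : ℝ} {b θ S U : ℂ → ℂ → ℂ}

theorem cDU (h : Ctx ρ M b θ S r e dl E ν) (l : Loss r e σ τ κ)
    (hU : ∀ x ε : ℂ, (x, ε) ∈ WW 0 (r - 3 * σ) (e - 2 * τ) → ε ≠ 0 →
        U x ε = -ZZ b θ S x ε / mn (JJ (Fg b) θ) ε)
    {m ε : ℂ} (hm : (m, ε) ∈ WW (1 / 2) (r - 3 * σ) (e - 2 * τ)) (hε : ε ≠ 0) :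
    cF (Fg b) θ m ε * Dl U m ε = GG (Fg b) θ S m ε + WWr b θ S m ε := by
  have hσ := l.hσ
  have hτ := l.hτ
  have hmr : (m, ε) ∈ WW (1 / 2) r e := WW_mono le_rfl (by linarith) (by linarith) hm
  have hY := h.mnJ_ne (ε := ε) hmr.1 hε
  have h2 := half_mem (a := 0) (by simpa using hm)
  have h3 := DV_eq (JD_Fg h.G) (isOpen_Om _ _) h.J_θ h.hS (fun η hη => h.mn_dat hη)
      (fun m η hm => h.adm' hm) (fun y η hy => h.v_ne hy) hmr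
  have h4 : Dl U m ε = -Dl (VV (Fg b) θ S) m ε / mn (JJ (Fg b) θ) ε := by
    unfold Dl
    rw [hU _ _ h2.1 hε, hU _ _ h2.2 hε]
    unfold ZZ
    ring
  rw [h4, h3]
  unfold WWr
  have h5 : JJ (Fg b) θ m ε = cF (Fg b) θ m ε * (1 + Dl (aa θ) m ε) := rfl
  rw [h5]
  field_simp
  ring

theorem B_cF (h : Ctx ρ M b θ S r e dl E ν) {x ε : ℂ} (hx : (x, ε) ∈ WW (1 / 2) r e) :
    ‖cF (Fg b) θ x ε‖ ≤ 109 / 100 * ‖ε‖ := by
  have h1 := h.cF_near hx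
  have h2 := norm_add_le (cF (Fg b) θ x ε - ε) ε
  rw [sub_add_cancel] at h2
  linarith

/-- bound of the remainder away from `ε = 0` -/
theorem B_W (h : Ctx ρ M b θ S r e dl E ν) (l : Loss r e σ τ κ) {m ε : ℂ}
    (hm : (m, ε) ∈ WW (1 / 2) (r - 2 * σ) (e - 2 * τ)) (hε : σ * τ ≤ ‖ε‖) :
    ‖WWr b θ S m ε‖ ≤ 120 * (κ ^ 5 * (E + ν) ^ 2 / e ^ 4) + 2 * (κ / e * ν) := by
  have hσ := l.hσ
  have hτ := l.hτ
  have hκ := l.κ_pos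
  have hE := h.hE
  have hν := h.hν
  have he := h.he0
  have he1 := h.he1
  have hmr : (m, ε) ∈ WW (1 / 2) r e := WW_mono le_rfl (by linarith) (by linarith) hm
  have hε0 : 0 < ‖ε‖ := by have := mul_pos hσ hτ; linarith
  have k1 := h.B_J0 l m ε hm
  have k2 := h.B_G l m ε (WW_mono le_rfl le_rfl (by linarith) hm)
  have k3 := h.mnJ_lower (ε := ε) hmr.1
  have k4 := h.B_cF hmr
  have k5 : ‖Av (aa θ) m ε‖ ≤ 1 / 49 := h.aa_le.Av m ε (by simpa using hmr)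
  have k6 := h.B_dxf l m ε (WW_mono le_rfl (by linarith) (by linarith) hm)
  have k7 := h.B_def l m ε (WW_mono le_rfl (by linarith) (by linarith) hm)
  obtain ⟨n1, n2, n3⟩ := h.nu_le l
  have k8 : 1 / ‖ε‖ ≤ κ / e := by
    rw [← l.inv_στ]
    exact one_div_le_one_div_of_le (mul_pos hσ hτ) hε
  have hY0 : 0 < ‖mn (JJ (Fg b) θ) ε‖ := by linarith
  have k9 : 1 / ‖mn (JJ (Fg b) θ) ε‖ ≤ 4 / 3 * (κ / e) := by
    have : 1 / ‖mn (JJ (Fg b) θ) ε‖ ≤ 1 / (3 / 4 * ‖ε‖) :=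
      one_div_le_one_div_of_le (by positivity) k3
    refine this.trans ?_
    have e1 : 1 / (3 / 4 * ‖ε‖) = 4 / 3 * (1 / ‖ε‖) := by field_simp
    rw [e1]
    gcongr
  have t1 : ‖(JJ (Fg b) θ m ε - mn (JJ (Fg b) θ) ε) / mn (JJ (Fg b) θ) ε *
      GG (Fg b) θ S m ε‖ ≤ 120 * (κ ^ 5 * (E + ν) ^ 2 / e ^ 4) := by
    rw [norm_mul, norm_div, div_eq_mul_one_div]
    have hEE : κ ^ 2 * E / e ^ 2 ≤ κ ^ 2 * (E + ν) / e ^ 2 := by gcongr; linarith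
    calc ‖JJ (Fg b) θ m ε - mn (JJ (Fg b) θ) ε‖ * (1 / ‖mn (JJ (Fg b) θ) ε‖) *
          ‖GG (Fg b) θ S m ε‖
        ≤ (6 * (κ ^ 2 * (E + ν) / e ^ 2)) * (4 / 3 * (κ / e)) *
          (15 * (κ ^ 2 * (E + ν) / e)) := by
          gcongr
          exact k1.trans (by linarith)
      _ = 120 * (κ ^ 5 * (E + ν) ^ 2 / e ^ 4) := by field_simp; ring
  have t2 : ‖cF (Fg b) θ m ε / mn (JJ (Fg b) θ) ε *
      (de (f1 (Fg b) θ S) m ε - Av (aa θ) m ε * dx (f1 (Fg b) θ S) m ε)‖ ≤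
      2 * (κ / e * ν) := by
    rw [norm_mul, norm_div]
    have s1 : ‖cF (Fg b) θ m ε‖ / ‖mn (JJ (Fg b) θ) ε‖ ≤ 109 / 75 := by
      rw [div_le_iff₀ hY0]
      nlinarith
    have s2 : ‖de (f1 (Fg b) θ S) m ε - Av (aa θ) m ε * dx (f1 (Fg b) θ S) m ε‖ ≤
        κ / e * ν + 1 / 49 * (κ / e * ν) := by
      refine (norm_sub_le _ _).trans ?_
      rw [norm_mul]
      gcongr
      exact k6.trans n2
    have s3 : 0 ≤ κ / e * ν := by positivity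
    calc _ ≤ 109 / 75 * (κ / e * ν + 1 / 49 * (κ / e * ν)) := by gcongr
      _ ≤ 2 * (κ / e * ν) := by linarith
  unfold WWr
  exact (norm_add_le _ _).trans (add_le_add t1 t2)

theorem convex_slice (r e : ℝ) (ε : ℂ) : Convex ℝ {t : ℂ | (t, ε) ∈ WW 0 r e} := by
  intro p hp q hq s t hs ht hst
  have := convex_WW (le_refl (0 : ℝ)) (x := (p, ε)) hp (y := (q, ε)) hq hs ht hst
  have e1 : s • (p, ε) + t • (q, ε) = ((s • p + t • q, ε) : ℂ × ℂ) := by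
    ext
    · rfl
    · show s • ε + t • ε = ε
      rw [← add_smul, hst, one_smul]
  rw [e1] at this
  exact this

/-- Lipschitz bound in the phase from the Cauchy bound -/
theorem lip_of_bd {f : ℂ → ℂ → ℂ} {r' e' σ c η : ℝ} (hσ : 0 < σ) (hc : 1 / σ ≤ c) (hη : 0 ≤ η)
    (hf : JD f (WW 0 (r' + σ) e')) (hb : Bd f η (WW 0 (r' + σ) e')) {p q ε : ℂ}
    (hp : (p, ε) ∈ WW 0 r' e') (hq : (q, ε) ∈ WW 0 r' e') :
    ‖f q ε - f p ε‖ ≤ c * η * ‖q - p‖ := by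
  have hdu : Bd (dx f) (c * η) (WW 0 r' e') := by
    have h1 := Bd.dx (r' := r') hf hb (by linarith)
    refine h1.mono ?_ subset_rfl
    rw [add_sub_cancel_left, div_eq_mul_one_div, mul_comm]
    exact mul_le_mul_of_nonneg_right hc hη
  exact Convex.norm_image_sub_le_of_norm_hasDerivWithin_le (𝕜 := ℂ) (C := c * η)
      (f := fun t => f t ε) (f' := fun t => dx f t ε)
      (s := {t : ℂ | (t, ε) ∈ WW 0 r' e'})
      (fun t ht => (hf.hasDerivAt_x (isOpen_WW _ _ _)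
        (WW_mono le_rfl (by linarith) le_rfl ht)).hasDerivWithinAt)
      (fun t ht => hdu t ε ht) (convex_slice _ _ _) hp hq

/-- remainder of `F₂` along the correction `u` -/
noncomputable def Q1 (b θ u : ℂ → ℂ → ℂ) (x ε : ℂ) : ℂ :=
  de (Fg b) (θ (x - ε) ε + u (x - ε) ε) (θ x ε + u x ε) -
    de (Fg b) (θ (x - ε) ε) (θ x ε) - (dx (de (Fg b)) (θ (x - ε) ε) (θ x ε) * u (x - ε) ε +
      de (de (Fg b)) (θ (x - ε) ε) (θ x ε) * u x ε)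

/-- remainder of `F₁` along the correction `u` -/
noncomputable def Q2 (b θ u : ℂ → ℂ → ℂ) (x ε : ℂ) : ℂ :=
  dx (Fg b) (θ x ε + u x ε) (θ (x + ε) ε + u (x + ε) ε) -
    dx (Fg b) (θ x ε) (θ (x + ε) ε) - (dx (dx (Fg b)) (θ x ε) (θ (x + ε) ε) * u x ε +
      dx (de (Fg b)) (θ x ε) (θ (x + ε) ε) * u (x + ε) ε)

/-- the identity of the Newton step -/
theorem new_id (h : Ctx ρ M b θ S r e dl E ν) (l : Loss r e σ τ κ)
    (hU : ∀ x ε : ℂ, (x, ε) ∈ WW 0 (r - 3 * σ) (e - 2 * τ) → ε ≠ 0 →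
        U x ε = -ZZ b θ S x ε / mn (JJ (Fg b) θ) ε)
    {x ε : ℂ} (hx : (x, ε) ∈ WW 1 (r - 3 * σ) (e - 2 * τ)) (hε : ε ≠ 0) :
    dx θ x ε * EE (Fg b) (fun x ε => θ x ε + dx θ x ε * U x ε) x ε =
      Av (dx (f1 (Fg b) θ S)) x ε - (WWr b θ S (x + ε / 2) ε - WWr b θ S (x - ε / 2) ε) +
        dx θ x ε * dx (EE (Fg b) θ) x ε * U x ε +
        dx θ x ε * (Q1 b θ (fun x ε => dx θ x ε * U x ε) x ε +
          Q2 b θ (fun x ε => dx θ x ε * U x ε) x ε) := by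
  have hσ := l.hσ
  have hτ := l.hτ
  have hxr : (x, ε) ∈ WW 1 r e := WW_mono le_rfl (by linarith) (by linarith) hx
  have hh3 := half_mem (a := 1 / 2) (x := x) (ε := ε) (by norm_num; exact hx)
  have hlin := lin_eq (JD_Fg h.G) (isOpen_Om _ _) h.J_θ (U := U) (fun m η hm => h.adm' hm) hxr
  have hDG := DG_eq (JD_Fg h.G) (isOpen_Om _ _) h.J_θ h.hS (fun m η hm => h.adm' hm) hxr
  have hcp := h.cDU l hU hh3.1 hε
  have hcm := h.cDU l hU hh3.2 hε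
  have hD : Dl (fun y η => cF (Fg b) θ y η * Dl U y η) x ε =
      Dl (GG (Fg b) θ S) x ε + (WWr b θ S (x + ε / 2) ε - WWr b θ S (x - ε / 2) ε) := by
    show cF (Fg b) θ (x + ε / 2) ε * Dl U (x + ε / 2) ε -
      cF (Fg b) θ (x - ε / 2) ε * Dl U (x - ε / 2) ε = _
    rw [hcp, hcm]
    unfold Dl
    ring
  rw [hD, hDG] at hlin
  have e1 : EE (Fg b) (fun x ε => θ x ε + dx θ x ε * U x ε) x ε =
      EE (Fg b) θ x ε + ((dx (de (Fg b)) (θ (x - ε) ε) (θ x ε) * (dx θ (x - ε) ε * U (x - ε) ε) +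
        de (de (Fg b)) (θ (x - ε) ε) (θ x ε) * (dx θ x ε * U x ε)) +
        (dx (dx (Fg b)) (θ x ε) (θ (x + ε) ε) * (dx θ x ε * U x ε) +
        dx (de (Fg b)) (θ x ε) (θ (x + ε) ε) * (dx θ (x + ε) ε * U (x + ε) ε))) +
        (Q1 b θ (fun x ε => dx θ x ε * U x ε) x ε +
          Q2 b θ (fun x ε => dx θ x ε * U x ε) x ε) := by
    simp only [EE, Q1, Q2]
    ring
  rw [e1]
  linear_combination hlin

/-- size of a Taylor remainder -/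
theorem rem_size {M κ e T d : ℝ} (hM0 : 0 ≤ M) (hκ1 : 1 ≤ κ) (he : 0 < e) (hT0 : 0 ≤ T)
    (hd0 : 0 ≤ d) (hd : d ≤ κ * (147 * (κ ^ 3 * T / e ^ 3)) * e) :
    d ^ 2 / 2 + 3 * (M * 8 ^ 5) * e ^ 2 * (147 * (κ ^ 3 * T / e ^ 3)) ^ 2 ≤
      (1 + 3 * (M * 8 ^ 5)) * (21609 * (κ ^ 8 * T ^ 2 / e ^ 4)) := by
  have h2 : κ * (147 * (κ ^ 3 * T / e ^ 3)) * e = 147 * (κ ^ 4 * T / e ^ 2) := by field_simp
  have h3 : d ^ 2 / 2 ≤ 21609 * (κ ^ 8 * T ^ 2 / e ^ 4) := by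
    rw [h2] at hd
    have : d ^ 2 ≤ (147 * (κ ^ 4 * T / e ^ 2)) ^ 2 := by gcongr
    have e3 : (147 * (κ ^ 4 * T / e ^ 2)) ^ 2 = 21609 * (κ ^ 8 * T ^ 2 / e ^ 4) := by ring
    rw [e3] at this
    have : 0 ≤ 21609 * (κ ^ 8 * T ^ 2 / e ^ 4) := by positivity
    linarith
  have h4 : 3 * (M * 8 ^ 5) * e ^ 2 * (147 * (κ ^ 3 * T / e ^ 3)) ^ 2 ≤
      3 * (M * 8 ^ 5) * (21609 * (κ ^ 8 * T ^ 2 / e ^ 4)) := by
    have e4 : e ^ 2 * (147 * (κ ^ 3 * T / e ^ 3)) ^ 2 = 21609 * (κ ^ 6 * T ^ 2 / e ^ 4) := by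
      field_simp; ring
    have i1 : κ ^ 6 * T ^ 2 / e ^ 4 ≤ κ ^ 8 * T ^ 2 / e ^ 4 := by
      have j1 : κ ^ 6 ≤ κ ^ 8 := pow_le_pow_right₀ hκ1 (by norm_num)
      gcongr
    calc 3 * (M * 8 ^ 5) * e ^ 2 * (147 * (κ ^ 3 * T / e ^ 3)) ^ 2 =
          3 * (M * 8 ^ 5) * (e ^ 2 * (147 * (κ ^ 3 * T / e ^ 3)) ^ 2) := by ring
      _ ≤ _ := by rw [e4]; gcongr
  linarith

/-- bound of the correction `u = v U` -/
theorem B_u (h : Ctx ρ M b θ S r e dl E ν) (l : Loss r e σ τ κ)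
    (hUb : Bd U (144 * (κ ^ 3 * (E + ν) / e ^ 3)) (WW 0 (r - 3 * σ) (e - 2 * τ))) :
    Bd (fun x ε => dx θ x ε * U x ε) (147 * (κ ^ 3 * (E + ν) / e ^ 3))
      (WW 0 (r - 3 * σ) (e - 2 * τ)) := by
  have hσ := l.hσ
  have hτ := l.hτ
  have hκ := l.κ_pos
  have hE := h.hE
  have hν := h.hν
  have he := h.he0
  intro y ζ hy
  have h1 := (h.v_le (WW_mono le_rfl (by linarith) (by linarith) hy)).1
  have h2 := hUb y ζ hy
  have h3 : 0 ≤ κ ^ 3 * (E + ν) / e ^ 3 := by positivity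
  calc ‖dx θ y ζ * U y ζ‖ = ‖dx θ y ζ‖ * ‖U y ζ‖ := norm_mul _ _
    _ ≤ 51 / 50 * (144 * (κ ^ 3 * (E + ν) / e ^ 3)) := by gcongr
    _ ≤ _ := by linarith

/-- bounds of the Taylor remainders -/
theorem B_Q (h : Ctx ρ M b θ S r e dl E ν) (l : Loss r e σ τ κ)
    (hUJ : JD U (WW 0 (r - 3 * σ) (e - 2 * τ)))
    (hUb : Bd U (144 * (κ ^ 3 * (E + ν) / e ^ 3)) (WW 0 (r - 3 * σ) (e - 2 * τ)))
    (hs : 2 * (147 * (κ ^ 3 * (E + ν) / e ^ 3)) ≤ e)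
    {x ε : ℂ} (hx : (x, ε) ∈ WW 1 (r - 4 * σ) (e - 2 * τ)) :
    ‖Q1 b θ (fun x ε => dx θ x ε * U x ε) x ε‖ ≤
        (1 + 3 * (M * 8 ^ 5)) * (21609 * (κ ^ 8 * (E + ν) ^ 2 / e ^ 4)) ∧
      ‖Q2 b θ (fun x ε => dx θ x ε * U x ε) x ε‖ ≤
        (1 + 3 * (M * 8 ^ 5)) * (21609 * (κ ^ 8 * (E + ν) ^ 2 / e ^ 4)) := by
  have hσ := l.hσ
  have hτ := l.hτ
  have hκ1 := l.one_le h.r1
  have hκ := l.κ_pos
  have hE := h.hE
  have hν := h.hν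
  have he := h.he0
  have hM0 : 0 ≤ M := by linarith [h.G.hM]
  have hη0 : 0 ≤ 147 * (κ ^ 3 * (E + ν) / e ^ 3) := by positivity
  have hxr : (x, ε) ∈ WW 1 r e := WW_mono le_rfl (by linarith) (by linarith) hx
  have hx3 : (x, ε) ∈ WW 1 (r - 3 * σ) (e - 2 * τ) := WW_mono le_rfl (by linarith) le_rfl hx
  have ho3 := one_mem (a := 0) (x := x) (ε := ε) (by simpa using hx3)
  have ho4 := one_mem (a := 0) (x := x) (ε := ε) (by simpa using hx)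
  have hub := h.B_u l hUb
  have huJ : JD (fun x ε => dx θ x ε * U x ε) (WW 0 (r - 3 * σ) (e - 2 * τ)) :=
    (h.J_v.mono (WW_mono le_rfl (by linarith) (by linarith))).mul hUJ
  have er : r - 4 * σ + σ = r - 3 * σ := by ring
  have hlipu : ∀ p q : ℂ, (p, ε) ∈ WW 0 (r - 4 * σ) (e - 2 * τ) →
      (q, ε) ∈ WW 0 (r - 4 * σ) (e - 2 * τ) →
      ‖dx θ q ε * U q ε - dx θ p ε * U p ε‖ ≤
        κ * (147 * (κ ^ 3 * (E + ν) / e ^ 3)) * ‖q - p‖ := fun p q hp hq =>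
    lip_of_bd (f := fun x ε => dx θ x ε * U x ε) hσ l.inv_σ hη0 (by rw [er]; exact huJ)
      (by rw [er]; exact hub) hp hq
  have hεe : ‖ε‖ ≤ e := hxr.1.le
  have hd1 := hlipu _ _ ho4.2 (W10 hx)
  have hd2 := hlipu _ _ (W10 hx) ho4.1
  rw [sub_sub_cancel] at hd1
  rw [add_sub_cancel_left] at hd2
  have hc0 : 0 ≤ κ * (147 * (κ ^ 3 * (E + ν) / e ^ 3)) := by positivity
  have ha := h.adm1 hxr
  have q1 := F2_taylor h.G he (by linarith [h.h16]) hη0 hs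
    (Om_mono le_rfl (by linarith) ha.1) (hub _ _ ho3.2) (hub _ _ (W10 hx3))
  have q2 := F1_taylor h.G he (by linarith [h.h16]) hη0 hs
    (Om_mono le_rfl (by linarith) ha.2) (hub _ _ (W10 hx3)) (hub _ _ ho3.1)
  refine ⟨q1.trans (rem_size hM0 hκ1 he (by positivity) (norm_nonneg _)
    (hd1.trans (mul_le_mul_of_nonneg_left hεe hc0))), q2.trans (rem_size hM0 hκ1 he (by positivity)
    (norm_nonneg _) (hd2.trans (mul_le_mul_of_nonneg_left hεe hc0)))⟩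

theorem B_dEU (h : Ctx ρ M b θ S r e dl E ν) (l : Loss r e σ τ κ)
    (hUb : Bd U (144 * (κ ^ 3 * (E + ν) / e ^ 3)) (WW 0 (r - 3 * σ) (e - 2 * τ)))
    {x ε : ℂ} (hx : (x, ε) ∈ WW 1 (r - 3 * σ) (e - 2 * τ)) :
    ‖dx θ x ε * dx (EE (Fg b) θ) x ε * U x ε‖ ≤ 147 * (κ ^ 5 * (E + ν) ^ 2 / e ^ 4) := by
  have hσ := l.hσ
  have hτ := l.hτ
  have hκ1 := l.one_le h.r1
  have hκ := l.κ_pos
  have hE := h.hE
  have hν := h.hν
  have he := h.he0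
  have he1 := h.he1
  have hxr : (x, ε) ∈ WW 1 r e := WW_mono le_rfl (by linarith) (by linarith) hx
  have h1 := cau_dx l h.J_EE h.B_EE h.hE x ε (WW_mono le_rfl (by linarith) (by linarith) hx)
  have h2 := (h.v_le (W10 hxr)).1
  have h3 := hUb x ε (W10 hx)
  set T := E + ν with hT
  have hT0 : 0 ≤ T := by positivity
  rw [norm_mul, norm_mul]
  have hET : κ * E ≤ κ * T := by gcongr; rw [hT]; linarith
  calc ‖dx θ x ε‖ * ‖dx (EE (Fg b) θ) x ε‖ * ‖U x ε‖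
      ≤ 51 / 50 * (κ * T) * (144 * (κ ^ 3 * T / e ^ 3)) := by
        gcongr
        exact h1.trans hET
    _ = 146.88 * (κ ^ 4 * T ^ 2 / e ^ 3) := by ring
    _ ≤ 147 * (κ ^ 5 * T ^ 2 / e ^ 4) := by
        have i1 : κ ^ 4 * T ^ 2 / e ^ 3 ≤ κ ^ 5 * T ^ 2 / e ^ 4 := by
          rw [div_le_div_iff₀ (by positivity) (by positivity)]
          have j1 : κ ^ 4 * e ≤ κ ^ 5 * 1 := by
            have : κ ^ 5 = κ ^ 4 * κ := by ring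
            rw [this, mul_one]
            gcongr
            linarith
          calc κ ^ 4 * T ^ 2 * e ^ 4 = (κ ^ 4 * e) * (T ^ 2 * e ^ 3) := by ring
            _ ≤ (κ ^ 5 * 1) * (T ^ 2 * e ^ 3) := by gcongr
            _ = κ ^ 5 * T ^ 2 * e ^ 3 := by ring
        have i2 : 0 ≤ κ ^ 5 * T ^ 2 / e ^ 4 := by positivity
        linarith

/-- final numerical estimate -/
theorem fin_num {M κ e T ν v N a w1 w2 d q1 q2 : ℝ} (hM0 : 0 ≤ M) (hκ1 : 1 ≤ κ) (he : 0 < e)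
    (hT0 : 0 ≤ T) (hν : 0 ≤ ν) (hN : 0 ≤ N) (hv1 : v ≤ 51 / 50) (hv2 : 49 / 50 ≤ v)
    (ha : a ≤ κ / e * ν) (hw1 : w1 ≤ 120 * (κ ^ 5 * T ^ 2 / e ^ 4) + 2 * (κ / e * ν))
    (hw2 : w2 ≤ 120 * (κ ^ 5 * T ^ 2 / e ^ 4) + 2 * (κ / e * ν))
    (hd : d ≤ 147 * (κ ^ 5 * T ^ 2 / e ^ 4))
    (hq1 : q1 ≤ (1 + 3 * (M * 8 ^ 5)) * (21609 * (κ ^ 8 * T ^ 2 / e ^ 4)))
    (hq2 : q2 ≤ (1 + 3 * (M * 8 ^ 5)) * (21609 * (κ ^ 8 * T ^ 2 / e ^ 4)))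
    (h : v * N ≤ a + (w1 + w2) + d + v * (q1 + q2)) :
    N ≤ (50000 * (1 + 6 * (M * 8 ^ 5))) * κ ^ 8 * (ν / e + T ^ 2 / e ^ 4) := by
  set X := κ ^ 8 * T ^ 2 / e ^ 4 with hX
  have hX0 : 0 ≤ X := by positivity
  set Y := κ ^ 8 * (ν / e) with hYd
  have hY0 : 0 ≤ Y := by positivity
  have m1 : κ ^ 5 * T ^ 2 / e ^ 4 ≤ X := by
    have j1 : κ ^ 5 ≤ κ ^ 8 := pow_le_pow_right₀ hκ1 (by norm_num)
    rw [hX]; gcongr
  have m2 : κ / e * ν ≤ Y := by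
    have j1 : κ ≤ κ ^ 8 := by
      calc κ = κ ^ 1 := (pow_one _).symm
        _ ≤ κ ^ 8 := pow_le_pow_right₀ hκ1 (by norm_num)
    calc κ / e * ν = κ * (ν / e) := by ring
      _ ≤ κ ^ 8 * (ν / e) := by gcongr
  have e9 : (50000 * (1 + 6 * (M * 8 ^ 5))) * κ ^ 8 * (ν / e + T ^ 2 / e ^ 4) =
      (50000 * (1 + 6 * (M * 8 ^ 5))) * (Y + X) := by
    rw [hX, hYd]; ring
  rw [e9]
  have hMX : 0 ≤ (M * 8 ^ 5) * X := by positivity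
  have hMY : 0 ≤ (M * 8 ^ 5) * Y := by positivity
  have s1 : q1 + q2 ≤ 2 * ((1 + 3 * (M * 8 ^ 5)) * (21609 * X)) := by linarith
  have s2 : v * (q1 + q2) ≤ 51 / 50 * (2 * ((1 + 3 * (M * 8 ^ 5)) * (21609 * X))) := by
    have : 0 ≤ 2 * ((1 + 3 * (M * 8 ^ 5)) * (21609 * X)) := by positivity
    calc v * (q1 + q2) ≤ v * (2 * ((1 + 3 * (M * 8 ^ 5)) * (21609 * X))) := by gcongr
      _ ≤ _ := by gcongr
  have s3 : 49 / 50 * N ≤ v * N := by gcongr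
  linarith

/-- the new error away from `ε = 0` -/
theorem new_err (h : Ctx ρ M b θ S r e dl E ν) (l : Loss r e σ τ κ)
    (hUJ : JD U (WW 0 (r - 3 * σ) (e - 2 * τ)))
    (hU : ∀ x ε : ℂ, (x, ε) ∈ WW 0 (r - 3 * σ) (e - 2 * τ) → ε ≠ 0 →
        U x ε = -ZZ b θ S x ε / mn (JJ (Fg b) θ) ε)
    (hUb : Bd U (144 * (κ ^ 3 * (E + ν) / e ^ 3)) (WW 0 (r - 3 * σ) (e - 2 * τ)))
    (hs : 2 * (147 * (κ ^ 3 * (E + ν) / e ^ 3)) ≤ e)
    {x ε : ℂ} (hx : (x, ε) ∈ WW 1 (r - 4 * σ) (e - 2 * τ)) (hε : σ * τ ≤ ‖ε‖) :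
    ‖EE (Fg b) (fun x ε => θ x ε + dx θ x ε * U x ε) x ε‖ ≤
      (50000 * (1 + 6 * (M * 8 ^ 5))) * κ ^ 8 * (ν / e + (E + ν) ^ 2 / e ^ 4) := by
  have hσ := l.hσ
  have hτ := l.hτ
  have hκ1 := l.one_le h.r1
  have hE := h.hE
  have hν := h.hν
  have he := h.he0
  have hM0 : 0 ≤ M := by linarith [h.G.hM]
  have hε0 : ε ≠ 0 := by
    rw [← norm_pos_iff]; have := mul_pos hσ hτ; linarith
  have hxr : (x, ε) ∈ WW 1 r e := WW_mono le_rfl (by linarith) (by linarith) hx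
  have hx3 : (x, ε) ∈ WW 1 (r - 3 * σ) (e - 2 * τ) := WW_mono le_rfl (by linarith) le_rfl hx
  have hh3 := half_mem (a := 1 / 2) (x := x) (ε := ε) (by norm_num; exact hx3)
  have b1 : ‖Av (dx (f1 (Fg b) θ S)) x ε‖ ≤ κ / e * ν := by
    have h1 := (half_half' (h.B_dxf l).Av) x ε (WW_mono le_rfl (by linarith) (by linarith) hx)
    exact h1.trans (h.nu_le l).2.1
  have b2 := h.B_W l (WW_mono le_rfl (by linarith) le_rfl hh3.1) hε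
  have b3 := h.B_W l (WW_mono le_rfl (by linarith) le_rfl hh3.2) hε
  have b4 := h.B_dEU l hUb hx3
  obtain ⟨b5, b6⟩ := h.B_Q l hUJ hUb hs hx
  have hv := h.v_le (W10 hxr)
  have hid := h.new_id l hU hx3 hε0
  refine fin_num hM0 hκ1 he (by positivity) hν (norm_nonneg _) hv.1 hv.2 b1 b2 b3 b4 b5 b6 ?_
  rw [← norm_mul, hid]
  have t0 := norm_add_le (Q1 b θ (fun x ε => dx θ x ε * U x ε) x ε)
    (Q2 b θ (fun x ε => dx θ x ε * U x ε) x ε)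
  have t1 := norm_add_le (Av (dx (f1 (Fg b) θ S)) x ε -
    (WWr b θ S (x + ε / 2) ε - WWr b θ S (x - ε / 2) ε) +
      dx θ x ε * dx (EE (Fg b) θ) x ε * U x ε) (dx θ x ε *
        (Q1 b θ (fun x ε => dx θ x ε * U x ε) x ε + Q2 b θ (fun x ε => dx θ x ε * U x ε) x ε))
  have t2 := norm_add_le (Av (dx (f1 (Fg b) θ S)) x ε -
    (WWr b θ S (x + ε / 2) ε - WWr b θ S (x - ε / 2) ε))
      (dx θ x ε * dx (EE (Fg b) θ) x ε * U x ε)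
  have t3 := norm_sub_le (Av (dx (f1 (Fg b) θ S)) x ε)
    (WWr b θ S (x + ε / 2) ε - WWr b θ S (x - ε / 2) ε)
  have t4 := norm_sub_le (WWr b θ S (x + ε / 2) ε) (WWr b θ S (x - ε / 2) ε)
  rw [norm_mul (dx θ x ε) (Q1 b θ (fun x ε => dx θ x ε * U x ε) x ε +
    Q2 b θ (fun x ε => dx θ x ε * U x ε) x ε)] at t1
  have t5 : ‖dx θ x ε‖ * ‖Q1 b θ (fun x ε => dx θ x ε * U x ε) x ε +
      Q2 b θ (fun x ε => dx θ x ε * U x ε) x ε‖ ≤ ‖dx θ x ε‖ *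
      (‖Q1 b θ (fun x ε => dx θ x ε * U x ε) x ε‖ + ‖Q2 b θ (fun x ε => dx θ x ε * U x ε) x ε‖) := by
    gcongr
  linarith

end Ctx

end Vale.Agent.P097.TA.H477
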