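import Mathlib
import Vale.Agent.P097.H477.Step

/-! # P097 / Theorem A, package A5: one Newton step, final form -/

set_option linter.all false

open Set Filter Metric Topology
open scoped ComplexConjugate

namespace Vale.Agent.P097.TA.H477

open Vale.Agent.P097.TA

namespace Ctx

variable {ρ M r e dl E ν σ τ κ : ℝ} {b θ S U : ℂ → ℂ → ℂ}

theorem J_EE' (h : Ctx ρ M b θ S r e dl E ν) (l : Loss r e σ τ κ)
    (hUJ : JD U (WW 0 (r - 3 * σ) (e - 2 * τ)))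
    (hUb : Bd U (144 * (κ ^ 3 * (E + ν) / e ^ 3)) (WW 0 (r - 3 * σ) (e - 2 * τ)))
    (hs : 2 * (147 * (κ ^ 3 * (E + ν) / e ^ 3)) ≤ e) :
    JD (EE (Fg b) (fun x ε => θ x ε + dx θ x ε * U x ε)) (WW 1 (r - 3 * σ) (e - 2 * τ)) := by
  have hσ := l.hσ
  have hτ := l.hτ
  have he := h.he0
  have h16 := h.h16
  have hub := h.B_u l hUb
  have hsub : WW 0 (r - 3 * σ) (e - 2 * τ) ⊆ WW 0 r e :=
    WW_mono le_rfl (by linarith) (by linarith)
  have hJ : JD (fun x ε => θ x ε + dx θ x ε * U x ε) (WW 0 (r - 3 * σ) (e - 2 * τ)) :=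
    (h.J_θ.mono hsub).add ((h.J_v.mono hsub).mul hUJ)
  have h0 : JD (fun x ε => θ x ε + dx θ x ε * U x ε) (WW 1 (r - 3 * σ) (e - 2 * τ)) :=
    hJ.mono (WW_mono (by norm_num) le_rfl le_rfl)
  have hp : JD (fun x ε => θ (x + ε) ε + dx θ (x + ε) ε * U (x + ε) ε)
      (WW 1 (r - 3 * σ) (e - 2 * τ)) :=
    JD.comp (F := fun x ε => θ x ε + dx θ x ε * U x ε) hJ (JD.fst.add JD.snd) JD.snd fun x ε hx => (one_mem (a := 0) (by simpa using hx)).1
  have hm : JD (fun x ε => θ (x - ε) ε + dx θ (x - ε) ε * U (x - ε) ε)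
      (WW 1 (r - 3 * σ) (e - 2 * τ)) :=
    JD.comp (F := fun x ε => θ x ε + dx θ x ε * U x ε) hJ (JD.fst.sub JD.snd) JD.snd fun x ε hx => (one_mem (a := 0) (by simpa using hx)).2
  have mv : ∀ x ε : ℂ, (x, ε) ∈ WW 1 (r - 3 * σ) (e - 2 * τ) →
      (θ (x - ε) ε + dx θ (x - ε) ε * U (x - ε) ε, θ x ε + dx θ x ε * U x ε) ∈ Om ρ ρ ∧
      (θ x ε + dx θ x ε * U x ε, θ (x + ε) ε + dx θ (x + ε) ε * U (x + ε) ε) ∈ Om ρ ρ := by
    intro x ε hx
    have ho := one_mem (a := 0) (x := x) (ε := ε) (by simpa using hx)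
    have hxr : (x, ε) ∈ WW 1 r e := WW_mono le_rfl (by linarith) (by linarith) hx
    have ha := h.adm1 hxr
    have u1 := (hub _ _ ho.2).trans (by linarith : _ ≤ e)
    have u2 := (hub _ _ (W10 hx)).trans (by linarith : _ ≤ e)
    have u3 := (hub _ _ ho.1).trans (by linarith : _ ≤ e)
    exact ⟨Om_move ha.1 u1 u2 (by linarith) (by linarith),
      Om_move ha.2 u2 u3 (by linarith) (by linarith)⟩
  have k1 : JD (fun x ε => de (Fg b) (θ (x - ε) ε + dx θ (x - ε) ε * U (x - ε) ε)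
      (θ x ε + dx θ x ε * U x ε)) (WW 1 (r - 3 * σ) (e - 2 * τ)) :=
    JD.comp ((JD_Fg h.G).de (isOpen_Om _ _)) hm h0 fun x ε hx => (mv x ε hx).1
  have k2 : JD (fun x ε => dx (Fg b) (θ x ε + dx θ x ε * U x ε)
      (θ (x + ε) ε + dx θ (x + ε) ε * U (x + ε) ε)) (WW 1 (r - 3 * σ) (e - 2 * τ)) :=
    JD.comp ((JD_Fg h.G).dx (isOpen_Om _ _)) h0 hp fun x ε hx => (mv x ε hx).2
  exact k1.add k2

/-- the new error, all `ε` -/
theorem new_err' (h : Ctx ρ M b θ S r e dl E ν) (l : Loss r e σ τ κ)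
    (hUJ : JD U (WW 0 (r - 3 * σ) (e - 2 * τ)))
    (hU : ∀ x ε : ℂ, (x, ε) ∈ WW 0 (r - 3 * σ) (e - 2 * τ) → ε ≠ 0 →
        U x ε = -ZZ b θ S x ε / mn (JJ (Fg b) θ) ε)
    (hUb : Bd U (144 * (κ ^ 3 * (E + ν) / e ^ 3)) (WW 0 (r - 3 * σ) (e - 2 * τ)))
    (hs : 2 * (147 * (κ ^ 3 * (E + ν) / e ^ 3)) ≤ e) :
    Bd (EE (Fg b) (fun x ε => θ x ε + dx θ x ε * U x ε))
      ((50000 * (1 + 6 * (M * 8 ^ 5))) * κ ^ 8 * (ν / e + (E + ν) ^ 2 / e ^ 4))
      (WW 1 (r - 5 * σ) (e - 3 * τ)) := by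
  have hσ := l.hσ
  have hτ := l.hτ
  have he1 := h.he1
  have hr1 := h.r1
  have hστ : 0 < σ * τ := mul_pos hσ hτ
  have hσ1 : σ ≤ 1 := by linarith [l.hσr]
  have hτ1 : τ ≤ 1 := by linarith [l.hτe]
  intro x ε hx
  by_cases hε : σ * τ ≤ ‖ε‖
  · exact h.new_err l hUJ hU hUb hs (WW_mono le_rfl (by linarith) (by linarith) hx) hε
  · push Not at hε
    have hxi : |x.im| < r - 5 * σ := by
      have := (mem_WW.1 hx).2
      have : 0 ≤ |ε.im| := abs_nonneg _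
      linarith
    have hmem : ∀ t : ℂ, ‖t‖ ≤ σ * τ → (x, t) ∈ WW 1 (r - 4 * σ) (e - 2 * τ) := by
      intro t ht
      rw [mem_WW]
      have h1 : σ * τ ≤ σ * 1 := by gcongr
      have h2 : σ * τ ≤ 1 * τ := by gcongr
      have h3 := Complex.abs_im_le_norm t
      have := l.hτe
      constructor
      · linarith
      · linarith
    have hJ := h.J_EE' l hUJ hUb hs
    have hd : DifferentiableOn ℂ (fun t => EE (Fg b) (fun x ε => θ x ε + dx θ x ε * U x ε) x t)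
        (closedBall 0 (σ * τ)) := by
      refine hJ.differentiableOn_e fun t ht => ?_
      rw [mem_closedBall_zero_iff] at ht
      exact WW_mono le_rfl (by linarith) le_rfl (hmem t ht)
    have hdc : DiffContOnCl ℂ (fun t => EE (Fg b) (fun x ε => θ x ε + dx θ x ε * U x ε) x t)
        (ball 0 (σ * τ)) := hd.diffContOnCl_ball (le_refl _)
    refine Complex.norm_le_of_forall_mem_frontier_norm_le isBounded_ball hdc ?_
      (subset_closure (mem_ball_zero_iff.2 hε))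
    intro t ht
    rw [frontier_ball (0 : ℂ) hστ.ne', mem_sphere_zero_iff_norm] at ht
    exact h.new_err l hUJ hU hUb hs (hmem t ht.le) ht.ge

end Ctx

/-- [THMA-A5] one Newton step -/
theorem step {ρ M : ℝ} {b : ℂ → ℂ → ℂ} (hG : Gen ρ M b) :
    ∃ C e0 : ℝ, 1 ≤ C ∧ 0 < e0 ∧ e0 ≤ 1 / 16 ∧
      ∀ (r e r' e' dl E ν κ : ℝ) (θ S : ℂ → ℂ → ℂ), 0 < r' → r' < r → r ≤ ρ / 2 → 0 < e' →
        e' < e → e ≤ e0 → e ≤ r' → dl ≤ 1 / 50 → dl ≤ ρ / 4 → 0 ≤ E → 0 ≤ ν →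
        Apx b θ r e dl E → JD S (WW 0 r e) → Per S (WW 0 r e) →
        (∀ x ε : ℂ, (x, ε) ∈ WW 0 r e → S x (-ε) = S x ε) →
        (∀ x ε : ℂ, (x, ε) ∈ WW 0 r e → S (conj x) (conj ε) = conj (S x ε)) →
        Bd (fun x ε => ff b θ x ε - mn (ff b θ) ε - Dl S x ε) ν (WW (1 / 2) r e) →
        κ = e / ((r - r') * (e - e')) → C * (κ ^ 3 * (E + ν) / e ^ 3) ≤ e →
        ∃ θ' : ℂ → ℂ → ℂ, JD θ' (WW 0 r' e') ∧
          (∀ x ε : ℂ, (x, ε) ∈ WW 0 r' e' → θ' (x + 1) ε = θ' x ε + 1) ∧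
          (∀ x ε : ℂ, (x, ε) ∈ WW 0 r' e' → θ' x (-ε) = θ' x ε) ∧
          (∀ x ε : ℂ, (x, ε) ∈ WW 0 r' e' → θ' (conj x) (conj ε) = conj (θ' x ε)) ∧
          Bd (fun x ε => θ' x ε - θ x ε) (C * (κ ^ 3 * (E + ν) / e ^ 3)) (WW 0 r' e') ∧
          Bd (Er b θ') (C * κ ^ 8 * (ν / e + (E + ν) ^ 2 / e ^ 4)) (WW 1 r' e') := by
  have hρ := hG.hρ
  have hM := hG.hM
  set A : ℝ := 1 + 6 * (M * 8 ^ 5) with hA
  have hA1 : 1 ≤ A := by rw [hA]; have : 0 ≤ M * 8 ^ 5 := by positivity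
                         linarith
  set C : ℝ := 50000 * A * 36 ^ 8 with hC
  refine ⟨C, min (1 / 16) (min (ρ / 16) (1 / (1400 * (M * 8 ^ 5)))), ?_, ?_, min_le_left _ _, ?_⟩
  · rw [hC]; nlinarith
  · refine lt_min (by norm_num) (lt_min (by positivity) (by positivity))
  intro r e r' e' dl E ν κ θ S hr' hrr hrρ he' hee he0 her hdl hdlρ hE hν hApx hS hSp hSe hSr hf hκ
    hsmall
  have he : 0 < e := he'.trans hee
  have hr : 0 < r := hr'.trans hrr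
  have he16 : e ≤ 1 / 16 := he0.trans (min_le_left _ _)
  have heρ : 16 * e ≤ ρ := by
    have := he0.trans ((min_le_right _ _).trans (min_le_left _ _))
    linarith
  have heM : M * 8 ^ 5 * e ^ 2 ≤ 1 / 50 := by
    have h1 := he0.trans ((min_le_right _ _).trans (min_le_right _ _))
    have h2 : 0 < M * 8 ^ 5 := by positivity
    rw [le_div_iff₀ (by positivity)] at h1
    have h3 : M * 8 ^ 5 * e ≤ 1 / 1400 := by
      rw [le_div_iff₀ (by norm_num)]; linarith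
    calc M * 8 ^ 5 * e ^ 2 = (M * 8 ^ 5 * e) * e := by ring
      _ ≤ 1 / 1400 * (1 / 16) := by gcongr
      _ ≤ 1 / 50 := by norm_num
  have hctx : Ctx ρ M b θ S r e dl E ν :=
    { G := hG, A := hApx, hr0 := hr, hr := hrρ, he0 := he, her := by linarith, h16 := heρ,
      hMe := heM, hdl := hdl, hdlρ := hdlρ, hE := hE, hν := hν, hS := hS, hSp := hSp, hSe := hSe,
      hSr := hSr, hf := hf }
  have hd1 : 0 < r - r' := by linarith
  have hd2 : 0 < e - e' := by linarith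
  have l : Loss r e ((r - r') / 6) ((e - e') / 6) (36 * κ) :=
    { hσ := by positivity, hτ := by positivity, hσr := by linarith, hτe := by linarith,
      her := by linarith, hκ := by rw [hκ]; field_simp; norm_num }
  have hκ0 : 0 < κ := by rw [hκ]; positivity
  have hX0 : 0 ≤ κ ^ 3 * (E + ν) / e ^ 3 := by positivity
  have e3 : (36 * κ) ^ 3 * (E + ν) / e ^ 3 = 46656 * (κ ^ 3 * (E + ν) / e ^ 3) := by
    field_simp; ring
  have hCbig : 2 * (147 * 46656) ≤ C := by rw [hC]; nlinarith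
  have hs : 2 * (147 * ((36 * κ) ^ 3 * (E + ν) / e ^ 3)) ≤ e := by
    rw [e3]
    refine le_trans ?_ hsmall
    calc 2 * (147 * (46656 * (κ ^ 3 * (E + ν) / e ^ 3))) =
          (2 * (147 * 46656)) * (κ ^ 3 * (E + ν) / e ^ 3) := by ring
      _ ≤ C * (κ ^ 3 * (E + ν) / e ^ 3) := by gcongr
  obtain ⟨U, hUJ, hUp, hUe, hUr, hU, hUb⟩ := hctx.exists_U l
  have hσ := l.hσ
  have hτ := l.hτ
  have hsub : WW 0 r' e' ⊆ WW 0 (r - 3 * ((r - r') / 6)) (e - 2 * ((e - e') / 6)) :=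
    WW_mono le_rfl (by linarith) (by linarith)
  have hsub' : WW 0 r' e' ⊆ WW 0 r e := WW_mono le_rfl hrr.le hee.le
  refine ⟨fun x ε => θ x ε + dx θ x ε * U x ε, ?_, ?_, ?_, ?_, ?_, ?_⟩
  · exact (hApx.hol.mono hsub').add ((hctx.J_v.mono hsub').mul (hUJ.mono hsub))
  · intro x ε hx
    show θ (x + 1) ε + dx θ (x + 1) ε * U (x + 1) ε = θ x ε + dx θ x ε * U x ε + 1
    rw [hApx.per x ε (hsub' hx), hctx.P_v x ε (hsub' hx), hUp x ε (hsub hx)]
    ring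
  · intro x ε hx
    show θ x (-ε) + dx θ x (-ε) * U x (-ε) = θ x ε + dx θ x ε * U x ε
    rw [hApx.ev x ε (hsub' hx), hctx.E_v x ε (hsub' hx), hUe x ε (hsub hx)]
  · intro x ε hx
    show θ (conj x) (conj ε) + dx θ (conj x) (conj ε) * U (conj x) (conj ε) =
      conj (θ x ε + dx θ x ε * U x ε)
    rw [hApx.re x ε (hsub' hx), hctx.R_v x ε (hsub' hx), hUr x ε (hsub hx), map_add, map_mul]
  · intro x ε hx
    have h1 := hctx.B_u l hUb x ε (hsub hx)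
    have h2 : θ x ε + dx θ x ε * U x ε - θ x ε = dx θ x ε * U x ε := by ring
    show ‖θ x ε + dx θ x ε * U x ε - θ x ε‖ ≤ _
    rw [h2]
    refine h1.trans ?_
    rw [e3]
    calc 147 * (46656 * (κ ^ 3 * (E + ν) / e ^ 3)) = (147 * 46656) * (κ ^ 3 * (E + ν) / e ^ 3) := by
          ring
      _ ≤ C * (κ ^ 3 * (E + ν) / e ^ 3) := by
          gcongr
          linarith
  · have h1 := hctx.new_err' l hUJ hU hUb hs
    have h2 : Bd (Er b (fun x ε => θ x ε + dx θ x ε * U x ε))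
        ((50000 * (1 + 6 * (M * 8 ^ 5))) * (36 * κ) ^ 8 * (ν / e + (E + ν) ^ 2 / e ^ 4))
        (WW 1 (r - 5 * ((r - r') / 6)) (e - 3 * ((e - e') / 6))) := h1
    refine h2.mono (le_of_eq ?_) (WW_mono le_rfl (by linarith) (by linarith))
    rw [hC, hA]
    ring

end Vale.Agent.P097.TA.H477
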