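import Mathlib
import Vale.Agent.P097.H477.Main
import Vale.Agent.P097.H707.OneStep

/-! # P097 / Theorem A, package A5: the one step theorem in the shape `StepP` of H707 -/

set_option linter.all false

open Set Filter Metric Topology
open scoped ComplexConjugate

namespace Vale.Agent.P097.TA.H477

open Vale.Agent.P097.TA

theorem stepP {ρ M : ℝ} {b : ℂ → ℂ → ℂ} (hG : Gen ρ M b) :
    ∃ C d0 e0 r0 : ℝ, 0 < C ∧ 0 < d0 ∧ 0 < e0 ∧ 0 < r0 ∧ StepP b 8 C d0 e0 r0 := by
  obtain ⟨C, e0, hC, he0, he01, H⟩ := step hG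
  have hρ := hG.hρ
  have hρ1 := hG.hρ1
  refine ⟨C, min (1 / 50) (ρ / 4), e0, ρ / 2, by linarith, lt_min (by norm_num) (by positivity),
    he0, by positivity, ?_⟩
  intro r e r' e' dl E ν q θ S hr' hrr hr he' hee he her hdl0 hdl hE hν hq hqs hA hS hSp hSe hSr hf
  have hepos : 0 < e := he'.trans hee
  have hd1 : 0 < r - r' := by linarith
  have hd2 : 0 < e - e' := by linarith
  set κ : ℝ := e / ((r - r') * (e - e')) with hκ
  have hκ0 : 0 < κ := by positivity
  have hκ1 : 1 ≤ κ := by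
    rw [hκ, le_div_iff₀ (by positivity), one_mul]
    have h1 : r - r' ≤ 1 := by linarith
    calc (r - r') * (e - e') ≤ 1 * e := by
          apply mul_le_mul h1 (by linarith) hd2.le (by norm_num)
      _ = e := one_mul _
  have hq' : q = C * κ ^ 8 := by
    rw [hq, hκ]
    field_simp
  have hN : 0 ≤ E + ν := by linarith
  have h38 : κ ^ 3 ≤ κ ^ 8 := pow_le_pow_right₀ hκ1 (by norm_num)
  have hle : C * (κ ^ 3 * (E + ν) / e ^ 3) ≤ q / e ^ 3 * (E + ν) := by
    rw [hq']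
    calc C * (κ ^ 3 * (E + ν) / e ^ 3) = C * ((E + ν) / e ^ 3) * κ ^ 3 := by ring
      _ ≤ C * ((E + ν) / e ^ 3) * κ ^ 8 := by gcongr
      _ = C * κ ^ 8 / e ^ 3 * (E + ν) := by ring
  have hsm : C * (κ ^ 3 * (E + ν) / e ^ 3) ≤ e := by
    refine hle.trans ?_
    rw [div_mul_eq_mul_div, div_le_iff₀ (by positivity)]
    calc q * (E + ν) ≤ e ^ 4 := hqs
      _ = e * e ^ 3 := by ring
  obtain ⟨θ', h1, h2, h3, h4, h5, h6⟩ := H r e r' e' dl E ν κ θ S hr' hrr hr he' hee he her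
    (hdl.trans (min_le_left _ _)) (hdl.trans (min_le_right _ _)) hE.le hν hA hS hSp hSe hSr hf rfl
    hsm
  refine ⟨θ', h1, h2, h3, h4, h5.mono hle subset_rfl, ?_⟩
  rw [hq']
  exact h6

end Vale.Agent.P097.TA.H477
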